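import Vale.Agent.P097.H881.Ch

/-!
One-sided and backward forms of the Schottky chain with R2 points: signs and lower bounds.
-/

open Complex Metric Filter Topology Set

namespace Vale.Agent.P097.H881

open Vale.Agent.P097.H264

variable {E : Type*} [NormedAddCommGroup E] [NormedSpace ℂ E]

/-- `log (M / |G z|)` -/
noncomputable def Lg (M : ℝ) (G : E → ℂ) (z : E) : ℝ := Real.log (M / ‖G z‖)

theorem Lg_nonneg {U : Set E} {M : ℝ} {F G : E → ℂ} (h : RG U M F G) {z : E} (hz : z ∈ U)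
    (h0 : G z ≠ 0) : 0 ≤ Lg M G z :=
  Real.log_nonneg ((one_le_div (norm_pos_iff.mpr h0)).mpr (h.bd z hz))

theorem RG.neg {U : Set E} {M : ℝ} {F G : E → ℂ} (h : RG U M F G) : RG U M (fun z => -F z) G := by
  refine ⟨h.hF.neg, h.hG, fun y hy he => h.one y hy ?_, h.bd⟩
  rw [Complex.exp_neg, inv_eq_one] at he
  exact he

/-- **the reversed step**: the base of the count at `c`, the value at `z` -/
theorem RG.rev {F G : E → ℂ} {c z : E} {R M : ℝ} (hR : 0 < R) (h : RG (ball c R) M F G)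
    (hc : G c ≠ 0) (hz : ‖z - c‖ ≤ R / 32) : ‖F z - F c‖ ≤ LS * (1 + |(F z).re| + Lg M G c) := by
  have hGc : 0 < ‖G c‖ := norm_pos_iff.mpr hc
  have hGM : ‖G c‖ ≤ M := h.bd c (mem_ball_self hR)
  have hM : 0 < M := hGc.trans_le hGM
  set L : ℝ := Real.log (M / ‖G c‖) with hL
  have hL0 : 0 ≤ L := Real.log_nonneg ((one_le_div hGc).mpr hGM)
  set N : ℕ := ⌊L⌋₊ with hN
  have hNL : (N : ℝ) ≤ L := Nat.floor_le hL0
  have hLN : L < N + 1 := Nat.lt_floor_add_one L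
  set φ : ℂ → E := fun t => c + t • (z - c) with hφ
  have hmap : MapsTo φ (ball 0 32) (ball c R) := by
    intro t ht
    rw [mem_ball_zero_iff] at ht
    rw [hφ, mem_ball, dist_eq_norm, add_sub_cancel_left, norm_smul]
    rcases eq_or_lt_of_le (norm_nonneg (z - c)) with h0 | h0
    · rw [← h0, mul_zero]; exact hR
    · calc ‖t‖ * ‖z - c‖ < 32 * ‖z - c‖ := by gcongr
        _ ≤ R := by linarith
  have hφd : DifferentiableOn ℂ φ (ball 0 32) := by rw [hφ]; fun_prop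
  have hφ0 : φ 0 = c := by simp [hφ]
  have hφ1 : φ 1 = z := by simp [hφ]
  have hcount : {t ∈ closedBall (0 : ℂ) 9 | G (φ t) = 0}.encard ≤ N := by
    refine jensen_encard (M := M) (R := 32) (by norm_num) (by norm_num) (h.hG.comp hφd hmap)
      (fun t ht => h.bd _ (hmap ht)) ?_
    simp only [Function.comp_apply, hφ0]
    have h1 : M = ‖G c‖ * Real.exp L := by
      rw [hL, Real.exp_log (by positivity)]
      field_simp
    have h2 : Real.exp L < Real.exp (N + 1) := Real.exp_lt_exp.mpr hLN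
    have h3 : Real.exp (N + 1 : ℝ) ≤ (32 / 9) ^ (N + 1) := by
      have h4 : Real.exp 1 ≤ 32 / 9 := by
        have := Real.exp_one_lt_d9
        linarith
      calc Real.exp (N + 1 : ℝ) = Real.exp 1 ^ (N + 1) := by
            rw [← Real.exp_nat_mul]
            push_cast
            ring_nf
        _ ≤ (32 / 9) ^ (N + 1) := by gcongr
    have h5 : (9 / 32 : ℝ) ^ (N + 1) * (32 / 9) ^ (N + 1) = 1 := by
      rw [← mul_pow]
      norm_num
    have h6 : (0 : ℝ) < (9 / 32 : ℝ) ^ (N + 1) := by positivity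
    calc M * (9 / 32) ^ (N + 1) = ‖G c‖ * (Real.exp L * (9 / 32) ^ (N + 1)) := by rw [h1]; ring
      _ < ‖G c‖ * ((32 / 9) ^ (N + 1) * (9 / 32) ^ (N + 1)) := by
          gcongr
          exact h2.trans_le h3
      _ = ‖G c‖ := by rw [mul_comm ((32 / 9 : ℝ) ^ (N + 1)), h5, mul_one]
  have hsub8 : ball (1 : ℂ) 8 ⊆ closedBall 0 9 := by
    intro t ht
    rw [mem_ball, dist_eq_norm] at ht
    rw [mem_closedBall, dist_zero_right]
    have h1 : ‖t‖ ≤ ‖t - 1‖ + ‖(1 : ℂ)‖ := by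
      have := norm_add_le (t - 1) 1
      rwa [sub_add_cancel] at this
    rw [norm_one] at h1
    linarith
  have hsub32 : closedBall (0 : ℂ) 9 ⊆ ball 0 32 := closedBall_subset_ball (by norm_num)
  have hss : {t ∈ ball (1 : ℂ) 8 | exp (F (φ t)) = 1} ⊆ {t ∈ closedBall (0 : ℂ) 9 | G (φ t) = 0} :=
    fun t ht => ⟨hsub8 ht.1, h.one _ (hmap (hsub32 (hsub8 ht.1))) ht.2⟩
  have hcount' : {t ∈ ball (1 : ℂ) 8 | exp (F (φ t)) = 1}.encard ≤ N :=
    (Set.encard_le_encard hss).trans hcount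
  have hst := step_count (F := fun t => F (φ t)) (c := (1 : ℂ)) (z := 0) (R := 8) (by norm_num)
    ((h.hF.comp hφd hmap).mono (hsub8.trans hsub32)) hcount' (by norm_num)
  rw [hφ1, hφ0, norm_sub_rev] at hst
  refine hst.trans ?_
  have hLS := LS_one
  have hLg : Lg M G c = L := rfl
  rw [hLg]
  have : (N : ℝ) + 1 + |(F z).re| ≤ 1 + |(F z).re| + L := by linarith
  gcongr

/-- constant of the one-sided steps -/
noncomputable def KS : ℝ := 13 * (2 * LS + 1) ^ 2

theorem KS_one : 1 ≤ KS := by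
  unfold KS
  have := LS_one
  nlinarith

theorem KS_ge : 13 + (2 * LS + 1) ^ 2 ≤ KS := by
  unfold KS
  have := LS_one
  nlinarith

theorem KS_ge' : 13 * (1 + LS) ≤ KS := by
  unfold KS
  have := LS_one
  nlinarith

theorem abs_re_sub_le (a b : ℂ) : |a.re - b.re| ≤ ‖a - b‖ := by
  have := Complex.abs_re_le_norm (a - b)
  rwa [Complex.sub_re] at this

/-- forward, one-sided -/
theorem RG.fwd {F G : E → ℂ} {c z : E} {R M : ℝ} (hR : 0 < R) (h : RG (ball c R) M F G)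
    (hc : G c ≠ 0) (hz : ‖z - c‖ ≤ R / 32) :
    max (-(F z).re) 0 ≤ (2 * LS + 1) ^ 2 * (1 + max (-(F c).re) 0 + Lg M G c) := by
  have hLS := LS_one
  have hL := Lg_nonneg h (mem_ball_self hR) hc
  have h1 := (abs_re_sub_le (F z) (F c)).trans (h.step hR hc hz)
  have h2 := (abs_re_sub_le (F z) (F c)).trans (h.rev hR hc hz)
  have hSt : St M F G c = 1 + |(F c).re| + Lg M G c := rfl
  rw [hSt] at h1
  rw [abs_le] at h1 h2
  have hm := le_max_right (-(F c).re) 0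
  have hm' := le_max_left (-(F c).re) 0
  have hsq : (2 * LS + 1) ^ 2 * (1 + max (-(F c).re) 0 + Lg M G c) =
      (2 * LS + 1) * ((2 * LS + 1) * (1 + max (-(F c).re) 0 + Lg M G c)) := by ring
  have hbase : 0 ≤ 1 + max (-(F c).re) 0 + Lg M G c := by linarith
  have hbase2 : 0 ≤ (2 * LS + 1) * ((2 * LS + 1) * (1 + max (-(F c).re) 0 + Lg M G c)) := by
    positivity
  rw [hsq]
  refine max_le ?_ hbase2
  rcases le_or_gt 0 (F z).re with hz0 | hz0
  · linarith
  rw [abs_of_neg hz0] at h2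
  rcases le_or_gt (F c).re 0 with hc0 | hc0
  · rw [abs_of_nonpos hc0] at h1
    have h3 : LS * (1 + -(F c).re + Lg M G c) ≤ LS * (1 + max (-(F c).re) 0 + Lg M G c) := by
      gcongr
    have h4 : -(F z).re ≤ (LS + 1) * (1 + max (-(F c).re) 0 + Lg M G c) := by linarith
    have h5 : (LS + 1) * (1 + max (-(F c).re) 0 + Lg M G c) ≤
        (2 * LS + 1) * (1 + max (-(F c).re) 0 + Lg M G c) := by gcongr; linarith
    have h6 : (2 * LS + 1) * (1 + max (-(F c).re) 0 + Lg M G c) ≤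
        (2 * LS + 1) * ((2 * LS + 1) * (1 + max (-(F c).re) 0 + Lg M G c)) := by
      refine le_mul_of_one_le_left (by positivity) (by linarith)
    linarith
  · -- `Re F c > 0 > Re F z`: a zero of `Re F` between them bounds `Re F c`
    have hcont : ContinuousOn (fun t : ℝ => (F (c + (t : ℂ) • (z - c))).re) (Icc 0 1) := by
      have hF := h.hF.continuousOn
      refine Complex.continuous_re.comp_continuousOn (hF.comp (by fun_prop) ?_)
      intro t ht
      rw [mem_ball, dist_eq_norm, add_sub_cancel_left, norm_smul, Complex.norm_real,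
        Real.norm_eq_abs, abs_of_nonneg ht.1]
      have : t * ‖z - c‖ ≤ 1 * (R / 32) := by
        have := ht.2
        gcongr
      linarith
    have hiv := intermediate_value_Icc' (zero_le_one' ℝ) hcont
    have h0mem : (0 : ℝ) ∈ Icc ((F (c + ((1 : ℝ) : ℂ) • (z - c))).re)
        ((F (c + ((0 : ℝ) : ℂ) • (z - c))).re) := by
      rw [Complex.ofReal_one, one_smul, add_sub_cancel, Complex.ofReal_zero, zero_smul, add_zero]
      exact ⟨hz0.le, hc0.le⟩
    obtain ⟨t, ht, ht0⟩ := hiv h0mem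
    set y : E := c + (t : ℂ) • (z - c) with hy
    have hyc : ‖y - c‖ ≤ R / 32 := by
      rw [hy, add_sub_cancel_left, norm_smul, Complex.norm_real, Real.norm_eq_abs,
        abs_of_nonneg ht.1]
      have : t * ‖z - c‖ ≤ 1 * (R / 32) := by
        have := ht.2
        gcongr
      linarith
    have h3 := (abs_re_sub_le (F y) (F c)).trans (h.rev hR hc hyc)
    have ht0' : (F y).re = 0 := ht0
    rw [ht0', abs_zero, add_zero, zero_sub, abs_neg, abs_of_pos hc0] at h3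
    rw [abs_of_pos hc0] at h1
    have h5 : LS * (1 + (F c).re + Lg M G c) ≤ LS * (1 + LS * (1 + Lg M G c) + Lg M G c) := by
      gcongr
    have h6 : -(F z).re ≤ LS * (1 + LS * (1 + Lg M G c) + Lg M G c) := by linarith
    have h7 : LS * (1 + LS * (1 + Lg M G c) + Lg M G c) = (LS + LS ^ 2) * (1 + Lg M G c) := by ring
    have h8 : (LS + LS ^ 2) * (1 + Lg M G c) ≤
        (2 * LS + 1) ^ 2 * (1 + max (-(F c).re) 0 + Lg M G c) := by
      gcongr
      · nlinarith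
      · linarith
    rw [hsq] at h8
    linarith

/-- backward, one-sided -/
theorem RG.bwd {F G : E → ℂ} {c z : E} {R M : ℝ} (hR : 0 < R) (h : RG (ball c R) M F G)
    (hc : G c ≠ 0) (hz : ‖z - c‖ ≤ R / 32) :
    max (F c).re 0 ≤ (1 + LS) * max (F z).re 0 + LS * (1 + Lg M G c) := by
  have hLS := LS_one
  have hL := Lg_nonneg h (mem_ball_self hR) hc
  have h2 := (abs_re_sub_le (F z) (F c)).trans (h.rev hR hc hz)
  rw [abs_le] at h2
  have hm := le_max_right (F z).re 0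
  have hm' := le_max_left (F z).re 0
  have hb : 0 ≤ (1 + LS) * max (F z).re 0 + LS * (1 + Lg M G c) := by positivity
  refine max_le ?_ hb
  rcases le_or_gt (F c).re 0 with hc0 | hc0
  · linarith
  rcases le_or_gt 0 (F z).re with hz0 | hz0
  · rw [abs_of_nonneg hz0] at h2
    have : (1 + LS) * (F z).re ≤ (1 + LS) * max (F z).re 0 := by gcongr
    linarith
  · have hcont : ContinuousOn (fun t : ℝ => (F (c + (t : ℂ) • (z - c))).re) (Icc 0 1) := by
      have hF := h.hF.continuousOn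
      refine Complex.continuous_re.comp_continuousOn (hF.comp (by fun_prop) ?_)
      intro t ht
      rw [mem_ball, dist_eq_norm, add_sub_cancel_left, norm_smul, Complex.norm_real,
        Real.norm_eq_abs, abs_of_nonneg ht.1]
      have : t * ‖z - c‖ ≤ 1 * (R / 32) := by
        have := ht.2
        gcongr
      linarith
    have hiv := intermediate_value_Icc' (zero_le_one' ℝ) hcont
    have h0mem : (0 : ℝ) ∈ Icc ((F (c + ((1 : ℝ) : ℂ) • (z - c))).re)
        ((F (c + ((0 : ℝ) : ℂ) • (z - c))).re) := by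
      rw [Complex.ofReal_one, one_smul, add_sub_cancel, Complex.ofReal_zero, zero_smul, add_zero]
      exact ⟨hz0.le, hc0.le⟩
    obtain ⟨t, ht, ht0⟩ := hiv h0mem
    set y : E := c + (t : ℂ) • (z - c) with hy
    have hyc : ‖y - c‖ ≤ R / 32 := by
      rw [hy, add_sub_cancel_left, norm_smul, Complex.norm_real, Real.norm_eq_abs,
        abs_of_nonneg ht.1]
      have : t * ‖z - c‖ ≤ 1 * (R / 32) := by
        have := ht.2
        gcongr
      linarith
    have h3 := (abs_re_sub_le (F y) (F c)).trans (h.rev hR hc hyc)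
    have ht0' : (F y).re = 0 := ht0
    rw [ht0', abs_zero, add_zero, zero_sub, abs_neg, abs_of_pos hc0] at h3
    have : 0 ≤ (1 + LS) * max (F z).re 0 := by positivity
    linarith

/-- one step of the base point with all bounds -/
theorem RG.move1 {F G : E → ℂ} {c a : E} {R M : ℝ} (hR : 0 < R) (h : RG (ball c R) M F G)
    (hc : G c ≠ 0) (ha : ‖a - c‖ ≤ R / 32) :
    ∃ b : E, ‖b - c‖ = ‖a - c‖ ∧ ‖b - a‖ ≤ ‖a - c‖ / 4 ∧ G b ≠ 0 ∧ Lg M G b ≤ 13 * Lg M G c ∧
      1 + max (-(F b).re) 0 + Lg M G b ≤ KS * (1 + max (-(F c).re) 0 + Lg M G c) ∧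
      1 + max (F b).re 0 + Lg M G b ≤ KS * (1 + max (F c).re 0 + Lg M G c) := by
  obtain ⟨b, h1, h2, h3, h4, _, _⟩ := h.move hR hc ha
  have hL := Lg_nonneg h (mem_ball_self hR) hc
  have h4' : Lg M G b ≤ 13 * Lg M G c := h4
  have f1 := h.fwd hR hc (z := b) (by rw [h1]; exact ha)
  have f2 := h.neg.fwd hR hc (z := b) (by rw [h1]; exact ha)
  simp only [Complex.neg_re, neg_neg] at f2
  have hKS := KS_ge
  have hm1 := le_max_right (-(F c).re) 0
  have hm2 := le_max_right (F c).re 0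
  refine ⟨b, h1, h2, h3, h4', ?_, ?_⟩
  · have h5 : (13 + (2 * LS + 1) ^ 2) * (1 + max (-(F c).re) 0 + Lg M G c) ≤
        KS * (1 + max (-(F c).re) 0 + Lg M G c) := by gcongr
    linarith
  · have h5 : (13 + (2 * LS + 1) ^ 2) * (1 + max (F c).re 0 + Lg M G c) ≤
        KS * (1 + max (F c).re 0 + Lg M G c) := by gcongr
    linarith

/-- the bounds carried along a chain of `n` steps from `z'` to `w'` -/
structure Run (M : ℝ) (F G : E → ℂ) (n : ℕ) (z' w' : E) : Prop where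
  ne : G w' ≠ 0
  lg : Lg M G w' ≤ 13 ^ n * Lg M G z'
  fm : 1 + max (-(F w').re) 0 + Lg M G w' ≤ KS ^ n * (1 + max (-(F z').re) 0 + Lg M G z')
  fp : 1 + max (F w').re 0 + Lg M G w' ≤ KS ^ n * (1 + max (F z').re 0 + Lg M G z')
  bm : max (-(F z').re) 0 ≤ (1 + LS) ^ n * max (-(F w').re) 0 +
    ((13 * (1 + LS)) ^ n - 1) * (1 + Lg M G z')
  bp : max (F z').re 0 ≤ (1 + LS) ^ n * max (F w').re 0 +
    ((13 * (1 + LS)) ^ n - 1) * (1 + Lg M G z')

theorem bwd_combine {n : ℕ} {P P' Q L L' : ℝ} (hL : 0 ≤ L) (hL' : L' ≤ 13 ^ n * L)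
    (h : P ≤ (1 + LS) ^ n * P' + ((13 * (1 + LS)) ^ n - 1) * (1 + L))
    (h' : P' ≤ (1 + LS) * Q + LS * (1 + L')) :
    P ≤ (1 + LS) ^ (n + 1) * Q + ((13 * (1 + LS)) ^ (n + 1) - 1) * (1 + L) := by
  have hLS := LS_one
  have h1 : (1 + LS) ^ n * P' ≤ (1 + LS) ^ n * ((1 + LS) * Q + LS * (1 + 13 ^ n * L)) := by
    have : P' ≤ (1 + LS) * Q + LS * (1 + 13 ^ n * L) := by
      refine h'.trans ?_
      gcongr
    gcongr
  have h13 : (1 : ℝ) ≤ 13 ^ n := one_le_pow₀ (by norm_num)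
  have h2 : (1 + LS) ^ n * (LS * (1 + 13 ^ n * L)) ≤ (1 + LS) ^ n * (LS * (13 ^ n * (1 + L))) := by
    gcongr
    linarith
  have h3 : (1 + LS) ^ n * (LS * (13 ^ n * (1 + L))) = LS * ((13 * (1 + LS)) ^ n * (1 + L)) := by
    rw [mul_pow]; ring
  have h4 : ((13 * (1 + LS)) ^ (n + 1) - 1) * (1 + L) =
      (13 * (1 + LS)) * ((13 * (1 + LS)) ^ n * (1 + L)) - (1 + L) := by rw [pow_succ]; ring
  have h5 : (1 + LS) ^ n * ((1 + LS) * Q + LS * (1 + 13 ^ n * L)) =
      (1 + LS) ^ (n + 1) * Q + (1 + LS) ^ n * (LS * (1 + 13 ^ n * L)) := by rw [pow_succ]; ring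
  have h6 : 0 ≤ (13 * (1 + LS)) ^ n * (1 + L) := by positivity
  have h7 : (1 + LS) * ((13 * (1 + LS)) ^ n * (1 + L)) ≤
      (13 * (1 + LS)) * ((13 * (1 + LS)) ^ n * (1 + L)) := by
    gcongr
    linarith
  rw [h4]
  linarith

/-- **all bounds along a chain** -/
theorem Ch.run {U : Set E} {n : ℕ} {z w : E} {R R' : ℝ} (h : Ch U n z R w R') {M : ℝ}
    {F G : E → ℂ} (hRG : RG U M F G) {z' : E} (hz' : ‖z' - z‖ ≤ R / 80) (h0 : G z' ≠ 0) :
    ∃ w' : E, ‖w' - w‖ ≤ R' / 80 ∧ Run M F G n z' w' := by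
  induction h with
  | @refl z R hR hU => exact ⟨z', hz', ⟨h0, by simp, by simp, by simp, by simp, by simp⟩⟩
  | @step n z w v R R' R'' h hRR hv hR hU ih =>
    obtain ⟨w', hw', hr⟩ := ih hz'
    have hR' := h.stop.1
    have hz'U : z' ∈ U := by
      refine h.start.2 ?_
      have := h.start.1
      rw [mem_ball, dist_eq_norm]
      linarith
    have hsub : ball w' (79 / 80 * R') ⊆ U := by
      refine Subset.trans ?_ h.stop.2
      intro y hy
      rw [mem_ball, dist_eq_norm] at hy ⊢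
      have : ‖y - w‖ ≤ ‖y - w'‖ + ‖w' - w‖ := norm_sub_le_norm_sub_add_norm_sub y w' w
      linarith
    have haw : ‖v - w'‖ ≤ R' / 40 := by
      have h1 : ‖v - w'‖ ≤ ‖v - w‖ + ‖w - w'‖ := norm_sub_le_norm_sub_add_norm_sub _ w w'
      rw [norm_sub_rev w w'] at h1
      linarith
    have hb := hRG.mono hsub
    obtain ⟨b, b1, b2, b3, b4, b5, b6⟩ := hb.move1 (by positivity) hr.ne (a := v) (by linarith)
    have hL0 := Lg_nonneg hRG hz'U h0
    have hKS := KS_one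
    have g1 := hb.bwd (by positivity) hr.ne (z := b) (by rw [b1]; linarith)
    have g2 := hb.neg.bwd (by positivity) hr.ne (z := b) (by rw [b1]; linarith)
    simp only [Complex.neg_re] at g2
    refine ⟨b, by linarith, b3, ?_, ?_, ?_, bwd_combine hL0 hr.lg hr.bm g2,
      bwd_combine hL0 hr.lg hr.bp g1⟩
    · calc Lg M G b ≤ 13 * Lg M G w' := b4
        _ ≤ 13 * (13 ^ n * Lg M G z') := by
          have := hr.lg
          gcongr
        _ = 13 ^ (n + 1) * Lg M G z' := by ring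
    · calc 1 + max (-(F b).re) 0 + Lg M G b ≤ KS * (1 + max (-(F w').re) 0 + Lg M G w') := b5
        _ ≤ KS * (KS ^ n * (1 + max (-(F z').re) 0 + Lg M G z')) := by
          have := hr.fm
          gcongr
        _ = KS ^ (n + 1) * (1 + max (-(F z').re) 0 + Lg M G z') := by ring
    · calc 1 + max (F b).re 0 + Lg M G b ≤ KS * (1 + max (F w').re 0 + Lg M G w') := b6
        _ ≤ KS * (KS ^ n * (1 + max (F z').re 0 + Lg M G z')) := by
          have := hr.fp
          gcongr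
        _ = KS ^ (n + 1) * (1 + max (F z').re 0 + Lg M G z') := by ring

/-- **all bounds at every point near the end** (`G v` may vanish) -/
theorem Ch.fin1 {U : Set E} {n : ℕ} {z w : E} {R R' : ℝ} (h : Ch U n z R w R') {M : ℝ}
    {F G : E → ℂ} (hRG : RG U M F G) {z' : E} (hz' : ‖z' - z‖ ≤ R / 80) (h0 : G z' ≠ 0)
    {v : E} (hv : ‖v - w‖ ≤ R' / 80) :
    max (-(F v).re) 0 ≤ KS ^ (n + 1) * (1 + max (-(F z').re) 0 + Lg M G z') ∧
    max (F v).re 0 ≤ KS ^ (n + 1) * (1 + max (F z').re 0 + Lg M G z') ∧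
    max (-(F z').re) 0 ≤ KS ^ (n + 1) * (max (-(F v).re) 0 + 1 + Lg M G z') ∧
    max (F z').re 0 ≤ KS ^ (n + 1) * (max (F v).re 0 + 1 + Lg M G z') := by
  obtain ⟨w', hw', hr⟩ := h.run hRG hz' h0
  have hR' := h.stop.1
  have hz'U : z' ∈ U := by
    refine h.start.2 ?_
    have := h.start.1
    rw [mem_ball, dist_eq_norm]
    linarith
  have hsub : ball w' (79 / 80 * R') ⊆ U := by
    refine Subset.trans ?_ h.stop.2
    intro y hy
    rw [mem_ball, dist_eq_norm] at hy ⊢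
    have : ‖y - w‖ ≤ ‖y - w'‖ + ‖w' - w‖ := norm_sub_le_norm_sub_add_norm_sub y w' w
    linarith
  have haw : ‖v - w'‖ ≤ 79 / 80 * R' / 32 := by
    have h1 : ‖v - w'‖ ≤ ‖v - w‖ + ‖w - w'‖ := norm_sub_le_norm_sub_add_norm_sub _ w w'
    rw [norm_sub_rev w w'] at h1
    linarith
  have hb := hRG.mono hsub
  have hL0 := Lg_nonneg hRG hz'U h0
  have hLS := LS_one
  have hKS := KS_one
  have hKg := KS_ge
  have hKg' := KS_ge'
  have g1 := hb.bwd (by positivity) hr.ne haw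
  have g2 := hb.neg.bwd (by positivity) hr.ne haw
  simp only [Complex.neg_re] at g2
  have f1 := hb.fwd (by positivity) hr.ne haw
  have f2 := hb.neg.fwd (by positivity) hr.ne haw
  simp only [Complex.neg_re, neg_neg] at f2
  have key : ∀ P Q : ℝ, 0 ≤ Q →
      P ≤ (1 + LS) ^ (n + 1) * Q + ((13 * (1 + LS)) ^ (n + 1) - 1) * (1 + Lg M G z') →
      P ≤ KS ^ (n + 1) * (Q + 1 + Lg M G z') := by
    intro P Q hQ hP
    have h1 : (1 + LS) ^ (n + 1) * Q ≤ KS ^ (n + 1) * Q := by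
      gcongr
      linarith
    have h2 : ((13 * (1 + LS)) ^ (n + 1) - 1) * (1 + Lg M G z') ≤
        KS ^ (n + 1) * (1 + Lg M G z') := by
      have h3 : (13 * (1 + LS)) ^ (n + 1) ≤ KS ^ (n + 1) := by gcongr
      have : (13 * (1 + LS)) ^ (n + 1) - 1 ≤ KS ^ (n + 1) := by linarith
      gcongr
    calc P ≤ KS ^ (n + 1) * Q + KS ^ (n + 1) * (1 + Lg M G z') := by linarith
      _ = KS ^ (n + 1) * (Q + 1 + Lg M G z') := by ring
  have hsq : (2 * LS + 1) ^ 2 ≤ KS := by linarith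
  refine ⟨?_, ?_, ?_, ?_⟩
  · have hp : 0 ≤ 1 + max (-(F w').re) 0 + Lg M G w' := by
      have := le_max_right (-(F w').re) 0
      have := Lg_nonneg hb (mem_ball_self (by positivity)) hr.ne
      linarith
    calc max (-(F v).re) 0 ≤ (2 * LS + 1) ^ 2 * (1 + max (-(F w').re) 0 + Lg M G w') := f1
      _ ≤ KS * (KS ^ n * (1 + max (-(F z').re) 0 + Lg M G z')) := by
        have := hr.fm
        gcongr
      _ = KS ^ (n + 1) * (1 + max (-(F z').re) 0 + Lg M G z') := by ring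
  · have hp : 0 ≤ 1 + max (F w').re 0 + Lg M G w' := by
      have := le_max_right (F w').re 0
      have := Lg_nonneg hb (mem_ball_self (by positivity)) hr.ne
      linarith
    calc max (F v).re 0 ≤ (2 * LS + 1) ^ 2 * (1 + max (F w').re 0 + Lg M G w') := f2
      _ ≤ KS * (KS ^ n * (1 + max (F z').re 0 + Lg M G z')) := by
        have := hr.fp
        gcongr
      _ = KS ^ (n + 1) * (1 + max (F z').re 0 + Lg M G z') := by ring
  · exact key _ _ (le_max_right _ _) (bwd_combine hL0 hr.lg hr.bm g2)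
  · exact key _ _ (le_max_right _ _) (bwd_combine hL0 hr.lg hr.bp g1)

/-- **sign**: a large positive value stays positive near the end of the chain -/
theorem Ch.sign {U : Set E} {n : ℕ} {z w : E} {R R' : ℝ} (h : Ch U n z R w R') {M : ℝ}
    {F G : E → ℂ} (hRG : RG U M F G) {z' : E} (hz' : ‖z' - z‖ ≤ R / 80) (h0 : G z' ≠ 0)
    {v : E} (hv : ‖v - w‖ ≤ R' / 80) (hb : KS ^ (n + 1) * (1 + Lg M G z') < (F z').re) :
    0 < (F v).re := by
  have h1 := (h.fin1 hRG hz' h0 hv).2.2.2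
  by_contra hcon
  rw [not_lt] at hcon
  rw [max_eq_right hcon, zero_add] at h1
  have := le_max_left (F z').re 0
  linarith

theorem Ch.sign' {U : Set E} {n : ℕ} {z w : E} {R R' : ℝ} (h : Ch U n z R w R') {M : ℝ}
    {F G : E → ℂ} (hRG : RG U M F G) {z' : E} (hz' : ‖z' - z‖ ≤ R / 80) (h0 : G z' ≠ 0)
    {v : E} (hv : ‖v - w‖ ≤ R' / 80) (hb : KS ^ (n + 1) * (1 + Lg M G z') < -(F z').re) :
    (F v).re < 0 := by
  have h1 := h.sign hRG.neg hz' h0 hv (by simpa using hb)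
  simpa using h1

/-- the exponent of the one-sided bounds in the quadrant tube -/
noncomputable def pS : ℝ := Real.log KS / Real.log (1 + 1 / 160)

theorem pS_nonneg : 0 ≤ pS := by
  unfold pS
  have h1 : 0 ≤ Real.log KS := Real.log_nonneg KS_one
  have h2 : 0 < Real.log (1 + 1 / 160 : ℝ) := Real.log_pos (by norm_num)
  exact div_nonneg h1 h2.le

/-- the growth of the one-sided quadrant chain -/
noncomputable def BQ (X ω₀ ω : ℝ) : ℝ :=
  KS ^ (320 * X + 324) * (1 / ω₀) ^ pS * (1 / ω) ^ pS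

theorem KS_pow {X ω₀ ω : ℝ} (hω₀ : 0 < ω₀) (hω : 0 < ω) {n : ℕ} (hn : (n : ℝ) ≤ NQ X ω₀ ω) :
    KS ^ (n + 1) ≤ BQ X ω₀ ω := by
  have hK : 0 < KS := by linarith [KS_one]
  have h1 : KS ^ (n + 1) ≤ KS ^ (NQ X ω₀ ω + 1) := by
    rw [← Real.rpow_natCast]
    push_cast
    exact Real.rpow_le_rpow_of_exponent_le KS_one (by linarith)
  refine h1.trans (le_of_eq ?_)
  have e1 : NQ X ω₀ ω + 1 = (320 * X + 324) +
      Real.log (1 / ω₀) / Real.log (1 + 1 / 160) + Real.log (1 / ω) / Real.log (1 + 1 / 160) := by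
    unfold NQ
    rw [add_div]
    ring
  have e2 : ∀ x : ℝ, 0 < x → KS ^ (Real.log x / Real.log (1 + 1 / 160)) = x ^ pS := by
    intro x hx
    rw [Real.rpow_def_of_pos hK, Real.rpow_def_of_pos hx]
    unfold pS
    congr 1
    ring
  rw [e1, Real.rpow_add hK, Real.rpow_add hK, e2 _ (by positivity), e2 _ (by positivity)]
  rfl

/-- **one-sided bounds in the quadrant tube** -/
theorem quad_sign {b z p : ℂ × ℂ} {X ω₀ ω ρ : ℝ} (hω₀ : 0 < ω₀) (hω₀1 : ω₀ ≤ 1) (hω : 0 < ω)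
    (hω1 : ω ≤ 1) (hρ : 0 < ρ)
    (b1 : ω₀ * ρ ≤ -b.1.im) (b2 : ω₀ * ρ ≤ b.2.im) (hb : dist b p ≤ X * ρ)
    (h1 : ω * ρ ≤ -z.1.im) (h2 : ω * ρ ≤ z.2.im) (hz : dist z p ≤ X * ρ)
    {M : ℝ} {F G : ℂ × ℂ → ℂ} (hRG : RG (QT (min ω₀ ω * ρ / 2) p ((X + 2) * ρ)) M F G)
    (h0 : G b ≠ 0) {v : ℂ × ℂ} (hv : ‖v - z‖ ≤ ω * ρ / 160) :
    max (-(F v).re) 0 ≤ BQ X ω₀ ω * (1 + max (-(F b).re) 0 + Lg M G b) ∧
    max (F v).re 0 ≤ BQ X ω₀ ω * (1 + max (F b).re 0 + Lg M G b) ∧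
    max (-(F b).re) 0 ≤ BQ X ω₀ ω * (max (-(F v).re) 0 + 1 + Lg M G b) ∧
    max (F b).re 0 ≤ BQ X ω₀ ω * (max (F v).re 0 + 1 + Lg M G b) := by
  obtain ⟨n, hn, hch⟩ := quad_ch hω₀ hω₀1 hω hω1 hρ b1 b2 hb h1 h2 hz
  have hbU : b ∈ QT (min ω₀ ω * ρ / 2) p ((X + 2) * ρ) := hch.start.2 (mem_ball_self hch.start.1)
  have hL := Lg_nonneg hRG hbU h0
  have hK := KS_pow (X := X) hω₀ hω hn
  have hr : 0 < ω₀ * ρ / 2 := by positivity
  obtain ⟨g1, g2, g3, g4⟩ := hch.fin1 hRG (z' := b) (by rw [sub_self, norm_zero]; positivity) h0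
    (v := v) (by linarith)
  have m1 := le_max_right (-(F b).re) 0
  have m2 := le_max_right (F b).re 0
  have m3 := le_max_right (-(F v).re) 0
  have m4 := le_max_right (F v).re 0
  refine ⟨g1.trans ?_, g2.trans ?_, g3.trans ?_, g4.trans ?_⟩
  all_goals gcongr

/-- **the base value alone**: `G` is transported without loss from `F` -/
theorem quad_G {b z p : ℂ × ℂ} {X ω₀ ω ρ : ℝ} (hω₀ : 0 < ω₀) (hω₀1 : ω₀ ≤ 1) (hω : 0 < ω)
    (hω1 : ω ≤ 1) (hρ : 0 < ρ)
    (b1 : ω₀ * ρ ≤ -b.1.im) (b2 : ω₀ * ρ ≤ b.2.im) (hb : dist b p ≤ X * ρ)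
    (h1 : ω * ρ ≤ -z.1.im) (h2 : ω * ρ ≤ z.2.im) (hz : dist z p ≤ X * ρ)
    {M : ℝ} {F G : ℂ × ℂ → ℂ} (hRG : RG (QT (min ω₀ ω * ρ / 2) p ((X + 2) * ρ)) M F G)
    (h0 : G b ≠ 0) :
    ∃ b' : ℂ × ℂ, ‖b' - z‖ ≤ ω * ρ / 160 ∧ G b' ≠ 0 ∧ Lg M G b' ≤ BQ X ω₀ ω * Lg M G b := by
  obtain ⟨n, hn, hch⟩ := quad_ch hω₀ hω₀1 hω hω1 hρ b1 b2 hb h1 h2 hz
  have hbU : b ∈ QT (min ω₀ ω * ρ / 2) p ((X + 2) * ρ) := hch.start.2 (mem_ball_self hch.start.1)
  have hL := Lg_nonneg hRG hbU h0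
  have hK := KS_pow (X := X) hω₀ hω hn
  have hr : 0 < ω₀ * ρ / 2 := by positivity
  obtain ⟨b', hb', hrun⟩ := hch.run hRG (z' := b) (by rw [sub_self, norm_zero]; positivity) h0
  refine ⟨b', by linarith, hrun.ne, hrun.lg.trans ?_⟩
  have h13 : (13 : ℝ) ≤ KS := by
    have := KS_ge
    have := sq_nonneg (2 * LS + 1)
    linarith
  have h3 : (13 : ℝ) ^ n ≤ KS ^ (n + 1) := by
    calc (13 : ℝ) ^ n ≤ KS ^ n := by gcongr
      _ ≤ KS ^ (n + 1) := pow_le_pow_right₀ KS_one (by omega)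
  have h4 := h3.trans hK
  gcongr

end Vale.Agent.P097.H881
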