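import Vale.Agent.P097.H881.Quad

/-!
Finite chains of balls: relation `Ch U n z R w R'`, paths, and the chain of the quadrant tube.
-/

open Complex Metric Filter Topology Set

namespace Vale.Agent.P097.H881

variable {E : Type*} [NormedAddCommGroup E] [NormedSpace ℂ E]

/-- chain of `n` steps of balls in `U`, from the ball `(z, R)` to the ball `(w, R')` -/
inductive Ch (U : Set E) : ℕ → E → ℝ → E → ℝ → Prop
  | refl {z : E} {R : ℝ} (hR : 0 < R) (hU : ball z R ⊆ U) : Ch U 0 z R z R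
  | step {n : ℕ} {z w v : E} {R R' R'' : ℝ} (h : Ch U n z R w R') (hRR : R' ≤ 2 * R'')
      (hv : ‖v - w‖ ≤ R' / 80) (hR : 0 < R'') (hU : ball v R'' ⊆ U) : Ch U (n + 1) z R v R''

theorem Ch.start {U : Set E} {n : ℕ} {z w : E} {R R' : ℝ} (h : Ch U n z R w R') :
    0 < R ∧ ball z R ⊆ U := by
  induction h with
  | refl hR hU => exact ⟨hR, hU⟩
  | step _ _ _ _ _ ih => exact ih

theorem Ch.stop {U : Set E} {n : ℕ} {z w : E} {R R' : ℝ} (h : Ch U n z R w R') :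
    0 < R' ∧ ball w R' ⊆ U := by
  cases h with
  | refl hR hU => exact ⟨hR, hU⟩
  | step _ _ _ hR hU => exact ⟨hR, hU⟩

theorem Ch.mono_set {U V : Set E} {n : ℕ} {z w : E} {R R' : ℝ} (h : Ch U n z R w R') (hV : U ⊆ V) :
    Ch V n z R w R' := by
  induction h with
  | refl hR hU => exact Ch.refl hR (hU.trans hV)
  | step _ hRR hv hR hU ih => exact Ch.step ih hRR hv hR (hU.trans hV)

theorem Ch.trans {U : Set E} {n m : ℕ} {z w v : E} {R R' R'' : ℝ} (h : Ch U n z R w R')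
    (h' : Ch U m w R' v R'') : Ch U (n + m) z R v R'' := by
  induction h' with
  | refl _ _ => exact h
  | step _ hRR hv hR hU ih => exact Ch.step (ih h) hRR hv hR hU

theorem Ch.one {U : Set E} {z w : E} {R R' : ℝ} (hR : 0 < R) (hU : ball z R ⊆ U)
    (hRR : R ≤ 2 * R') (hw : ‖w - z‖ ≤ R / 80) (hR' : 0 < R') (hU' : ball w R' ⊆ U) :
    Ch U 1 z R w R' := Ch.step (Ch.refl hR hU) hRR hw hR' hU'

/-- a chain as sequences (the hypotheses of `RG.chain`) -/
theorem Ch.seq {U : Set E} {n : ℕ} {z w : E} {R R' : ℝ} (h : Ch U n z R w R') :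
    ∃ (c : ℕ → E) (r : ℕ → ℝ), c 0 = z ∧ r 0 = R ∧ c n = w ∧ r n = R' ∧ (∀ i ≤ n, 0 < r i) ∧
      (∀ i < n, r i ≤ 2 * r (i + 1)) ∧ (∀ i ≤ n, ball (c i) (r i) ⊆ U) ∧
      ∀ i < n, ‖c (i + 1) - c i‖ ≤ r i / 80 := by
  induction h with
  | @refl z R hR hU =>
    exact ⟨fun _ => z, fun _ => R, rfl, rfl, rfl, rfl, fun _ _ => hR, fun _ hi => by omega,
      fun _ _ => hU, fun _ hi => by omega⟩
  | @step n z w v R R' R'' h hRR hv hR hU ih =>
    obtain ⟨c, r, c0, r0, cn, rn, h1, h2, h3, h4⟩ := ih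
    have e1 : ∀ i ≤ n, (if i ≤ n then c i else v) = c i := fun i hi => if_pos hi
    have e2 : ∀ i ≤ n, (if i ≤ n then r i else R'') = r i := fun i hi => if_pos hi
    have e3 : ∀ i, ¬ i ≤ n → (if i ≤ n then c i else v) = v := fun i hi => if_neg hi
    have e4 : ∀ i, ¬ i ≤ n → (if i ≤ n then r i else R'') = R'' := fun i hi => if_neg hi
    refine ⟨fun i => if i ≤ n then c i else v, fun i => if i ≤ n then r i else R'', ?_, ?_, ?_, ?_,
      ?_, ?_, ?_, ?_⟩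
    · show (if 0 ≤ n then c 0 else v) = z
      rw [e1 0 (by omega), c0]
    · show (if 0 ≤ n then r 0 else R'') = R
      rw [e2 0 (by omega), r0]
    · show (if n + 1 ≤ n then c (n + 1) else v) = v
      rw [e3 _ (by omega)]
    · show (if n + 1 ≤ n then r (n + 1) else R'') = R''
      rw [e4 _ (by omega)]
    · intro i hi
      show 0 < (if i ≤ n then r i else R'')
      by_cases hin : i ≤ n
      · rw [e2 i hin]; exact h1 i hin
      · rw [e4 i hin]; exact hR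
    · intro i hi
      show (if i ≤ n then r i else R'') ≤ 2 * (if i + 1 ≤ n then r (i + 1) else R'')
      rw [e2 i (by omega)]
      by_cases hin : i + 1 ≤ n
      · rw [e2 _ hin]; exact h2 i (by omega)
      · rw [e4 _ hin]
        have : i = n := by omega
        rw [this, rn]
        exact hRR
    · intro i hi
      show ball (if i ≤ n then c i else v) (if i ≤ n then r i else R'') ⊆ U
      by_cases hin : i ≤ n
      · rw [e1 i hin, e2 i hin]; exact h3 i hin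
      · rw [e3 i hin, e4 i hin]; exact hU
    · intro i hi
      show ‖(if i + 1 ≤ n then c (i + 1) else v) - (if i ≤ n then c i else v)‖ ≤
        (if i ≤ n then r i else R'') / 80
      rw [e1 i (by omega), e2 i (by omega)]
      by_cases hin : i + 1 ≤ n
      · rw [e1 _ hin]; exact h4 i (by omega)
      · rw [e3 _ hin]
        have : i = n := by omega
        rw [this, rn, cn]
        exact hv

/-- the upper growth along a chain -/
theorem Ch.jr {U : Set E} {n : ℕ} {z w : E} {R R' : ℝ} (h : Ch U n z R w R') :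
    JR U (KR ^ n) z (R / 80) w (R' / 80) := by
  induction h with
  | refl _ _ => simpa using JR.refl U _ _
  | @step n z w v R R' R'' h hRR hv hR hU ih =>
    have h1 := ih.trans (JR.one_step h.stop.1 hRR h.stop.2 hv) KR_one
    rwa [pow_succ]

/-- paths in unit speed -/
theorem Ch.path_unit {U : Set E} {γ : ℝ → E} {R : ℝ → ℝ} {T : ℝ} (hT : 0 ≤ T)
    (hR : ∀ s ∈ Icc 0 T, 0 < R s) (hU : ∀ s ∈ Icc 0 T, ball (γ s) (R s) ⊆ U)
    (hRR : ∀ s ∈ Icc 0 T, ∀ s' ∈ Icc s T, s' ≤ s + 1 → R s ≤ 2 * R s')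
    (hγ : ∀ s ∈ Icc 0 T, ∀ s' ∈ Icc s T, s' ≤ s + 1 → ‖γ s' - γ s‖ ≤ R s / 80) :
    ∃ n : ℕ, (n : ℝ) ≤ T + 1 ∧ Ch U n (γ 0) (R 0) (γ T) (R T) := by
  have h0 : (0 : ℝ) ∈ Icc 0 T := ⟨le_rfl, hT⟩
  have key : ∀ n : ℕ, (n : ℝ) ≤ T → Ch U n (γ 0) (R 0) (γ n) (R n) := by
    intro n
    induction n with
    | zero =>
      intro _
      rw [Nat.cast_zero]
      exact Ch.refl (hR 0 h0) (hU 0 h0)
    | succ m ih =>
      intro hm
      push_cast at hm ⊢
      have hmT : (m : ℝ) ≤ T := by linarith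
      have hmem : (m : ℝ) ∈ Icc 0 T := ⟨by positivity, hmT⟩
      have hmem' : (m : ℝ) + 1 ∈ Icc 0 T := ⟨by positivity, hm⟩
      exact Ch.step (ih hmT) (hRR m hmem (m + 1) ⟨by linarith, hm⟩ le_rfl)
        (hγ m hmem (m + 1) ⟨by linarith, hm⟩ le_rfl) (hR _ hmem') (hU _ hmem')
  have hn := Nat.floor_le hT
  have hmem : ((⌊T⌋₊ : ℕ) : ℝ) ∈ Icc 0 T := ⟨by positivity, hn⟩
  have hTm : T ∈ Icc (0 : ℝ) T := ⟨hT, le_rfl⟩
  refine ⟨⌊T⌋₊ + 1, by push_cast; linarith, ?_⟩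
  exact Ch.step (key _ hn) (hRR _ hmem T ⟨hn, le_rfl⟩ (Nat.lt_floor_add_one T).le)
    (hγ _ hmem T ⟨hn, le_rfl⟩ (Nat.lt_floor_add_one T).le) (hR T hTm) (hU T hTm)

/-- going up -/
theorem Ch.path_up {U : Set E} {γ : ℝ → E} {a b c : ℝ} (ha : 0 < a) (hab : a ≤ b) (hc : 0 < c)
    (hγ : ∀ s ∈ Icc a b, ∀ t ∈ Icc a b, ‖γ t - γ s‖ ≤ |t - s|)
    (hU : ∀ t ∈ Icc a b, ball (γ t) (c * t) ⊆ U) :
    ∃ n : ℕ, (n : ℝ) ≤ Real.log (b / a) / Real.log (1 + c / 80) + 1 ∧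
      Ch U n (γ a) (c * a) (γ b) (c * b) := by
  have hq : 1 < 1 + c / 80 := by linarith
  have hlq : 0 < Real.log (1 + c / 80) := Real.log_pos hq
  have hba : 1 ≤ b / a := by rw [le_div_iff₀ ha]; linarith
  set T := Real.log (b / a) / Real.log (1 + c / 80) with hT
  have hT0 : 0 ≤ T := by
    have := Real.log_nonneg hba
    positivity
  have hqT : (1 + c / 80) ^ T = b / a := by
    rw [Real.rpow_def_of_pos (by linarith), hT, mul_div_cancel₀ _ hlq.ne', Real.exp_log (by positivity)]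
  have hmem : ∀ s ∈ Icc 0 T, a * (1 + c / 80) ^ s ∈ Icc a b := by
    intro s hs
    constructor
    · have := Real.one_le_rpow hq.le hs.1
      nlinarith
    · have h1 : (1 + c / 80) ^ s ≤ b / a := by
        rw [← hqT]; exact Real.rpow_le_rpow_of_exponent_le hq.le hs.2
      rw [le_div_iff₀ ha] at h1
      linarith
  obtain ⟨n, hn, h⟩ := Ch.path_unit (U := U) (γ := fun s => γ (a * (1 + c / 80) ^ s))
    (R := fun s => c * (a * (1 + c / 80) ^ s)) hT0 (fun s _ => by positivity)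
    (fun s hs => hU _ (hmem s hs)) (by
      intro s hs s' hs' hss
      have h1 : (1 + c / 80) ^ s ≤ (1 + c / 80) ^ s' :=
        Real.rpow_le_rpow_of_exponent_le hq.le hs'.1
      have h3 : 0 < (1 + c / 80) ^ s := by positivity
      have h4 : c * (a * (1 + c / 80) ^ s) ≤ c * (a * (1 + c / 80) ^ s') := by gcongr
      have h5 : 0 < c * (a * (1 + c / 80) ^ s) := by positivity
      linarith) (by
      intro s hs s' hs' hss
      have hs'' : s' ∈ Icc 0 T := ⟨hs.1.trans hs'.1, hs'.2⟩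
      refine (hγ _ (hmem s hs) _ (hmem s' hs'')).trans ?_
      have h1 : (1 + c / 80) ^ s ≤ (1 + c / 80) ^ s' :=
        Real.rpow_le_rpow_of_exponent_le hq.le hs'.1
      have h2 : (1 + c / 80) ^ s' ≤ (1 + c / 80) ^ s * (1 + c / 80) := by
        rw [← Real.rpow_add_one (by linarith)]
        exact Real.rpow_le_rpow_of_exponent_le hq.le hss
      have h3 : 0 < (1 + c / 80) ^ s := by positivity
      rw [← mul_sub, abs_mul, abs_of_pos ha, abs_of_nonneg (by linarith)]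
      calc a * ((1 + c / 80) ^ s' - (1 + c / 80) ^ s)
          ≤ a * ((1 + c / 80) ^ s * (1 + c / 80) - (1 + c / 80) ^ s) := by gcongr
        _ = c * (a * (1 + c / 80) ^ s) / 80 := by ring)
  simp only [Real.rpow_zero, mul_one, hqT] at h
  rw [mul_div_cancel₀ _ ha.ne'] at h
  exact ⟨n, hn, h⟩

/-- going down (`c ≤ 80`) -/
theorem Ch.path_down {U : Set E} {γ : ℝ → E} {a b c : ℝ} (ha : 0 < a) (hab : a ≤ b) (hc : 0 < c)
    (hc80 : c ≤ 80) (hγ : ∀ s ∈ Icc a b, ∀ t ∈ Icc a b, ‖γ t - γ s‖ ≤ |t - s|)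
    (hU : ∀ t ∈ Icc a b, ball (γ t) (c * t) ⊆ U) :
    ∃ n : ℕ, (n : ℝ) ≤ Real.log (b / a) / Real.log (1 + c / 80) + 1 ∧
      Ch U n (γ b) (c * b) (γ a) (c * a) := by
  have hq : 1 < 1 + c / 80 := by linarith
  have hq0 : (0 : ℝ) < 1 + c / 80 := by linarith
  have hlq : 0 < Real.log (1 + c / 80) := Real.log_pos hq
  have hb : 0 < b := by linarith
  have hba : 1 ≤ b / a := by rw [le_div_iff₀ ha]; linarith
  set T := Real.log (b / a) / Real.log (1 + c / 80) with hT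
  have hT0 : 0 ≤ T := by
    have := Real.log_nonneg hba
    positivity
  have hqT : (1 + c / 80) ^ (-T) = a / b := by
    rw [Real.rpow_neg hq0.le, Real.rpow_def_of_pos hq0, hT, mul_div_cancel₀ _ hlq.ne',
      Real.exp_log (by positivity), inv_div]
  have hmem : ∀ s ∈ Icc 0 T, b * (1 + c / 80) ^ (-s) ∈ Icc a b := by
    intro s hs
    constructor
    · have h1 : a / b ≤ (1 + c / 80) ^ (-s) := by
        rw [← hqT]; exact Real.rpow_le_rpow_of_exponent_le hq.le (by linarith [hs.2])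
      rw [div_le_iff₀ hb] at h1
      linarith
    · have h1 : (1 + c / 80) ^ (-s) ≤ 1 :=
        Real.rpow_le_one_of_one_le_of_nonpos hq.le (by linarith [hs.1])
      nlinarith
  have hstep : ∀ s s' : ℝ, s' ≤ s + 1 →
      (1 + c / 80) ^ (-s) ≤ (1 + c / 80) ^ (-s') * (1 + c / 80) := by
    intro s s' hss
    rw [← Real.rpow_add_one hq0.ne']
    exact Real.rpow_le_rpow_of_exponent_le hq.le (by linarith)
  obtain ⟨n, hn, h⟩ := Ch.path_unit (U := U) (γ := fun s => γ (b * (1 + c / 80) ^ (-s)))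
    (R := fun s => c * (b * (1 + c / 80) ^ (-s))) hT0 (fun s _ => by positivity)
    (fun s hs => hU _ (hmem s hs)) (by
      intro s hs s' hs' hss
      have h2 := hstep s s' hss
      have h3 : 0 < (1 + c / 80) ^ (-s') := by positivity
      have h4 : (1 + c / 80) ^ (-s) ≤ 2 * (1 + c / 80) ^ (-s') := by nlinarith
      calc c * (b * (1 + c / 80) ^ (-s)) ≤ c * (b * (2 * (1 + c / 80) ^ (-s'))) := by gcongr
        _ = 2 * (c * (b * (1 + c / 80) ^ (-s'))) := by ring) (by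
      intro s hs s' hs' hss
      have hs'' : s' ∈ Icc 0 T := ⟨hs.1.trans hs'.1, hs'.2⟩
      refine (hγ _ (hmem s hs) _ (hmem s' hs'')).trans ?_
      have h1 : (1 + c / 80) ^ (-s') ≤ (1 + c / 80) ^ (-s) :=
        Real.rpow_le_rpow_of_exponent_le hq.le (by linarith [hs'.1])
      have h2 := hstep s s' hss
      have h3 : 0 < (1 + c / 80) ^ (-s') := by positivity
      rw [← mul_sub, abs_mul, abs_of_pos hb, abs_of_nonpos (by linarith), neg_sub]
      have h4 : (1 + c / 80) ^ (-s) - (1 + c / 80) ^ (-s') ≤ c / 80 * (1 + c / 80) ^ (-s) := by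
        nlinarith
      calc b * ((1 + c / 80) ^ (-s) - (1 + c / 80) ^ (-s'))
          ≤ b * (c / 80 * (1 + c / 80) ^ (-s)) := by gcongr
        _ = c * (b * (1 + c / 80) ^ (-s)) / 80 := by ring)
  simp only [neg_zero, Real.rpow_zero, mul_one, hqT] at h
  rw [mul_div_cancel₀ _ hb.ne'] at h
  exact ⟨n, hn, h⟩

/-- straight segments with a tube of radius `R` -/
theorem Ch.path_seg {U : Set E} {z w : E} {R : ℝ} (hR : 0 < R)
    (hU : ∀ t ∈ Icc (0 : ℝ) 1, ball (z + (t : ℂ) • (w - z)) R ⊆ U) :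
    ∃ n : ℕ, (n : ℝ) ≤ 80 * ‖w - z‖ / R + 1 ∧ Ch U n z R w R := by
  rcases eq_or_lt_of_le (norm_nonneg (w - z)) with h0 | h0
  · have hzw : w = z := by
      rw [← sub_eq_zero]; exact norm_eq_zero.mp h0.symm
    subst hzw
    have h1 := hU 0 ⟨le_rfl, zero_le_one⟩
    rw [Complex.ofReal_zero, zero_smul, add_zero] at h1
    refine ⟨0, by rw [← h0]; simp, Ch.refl hR h1⟩
  set T := 80 * ‖w - z‖ / R with hT
  have hT0 : 0 < T := by positivity
  obtain ⟨n, hn, h⟩ := Ch.path_unit (U := U) (γ := fun s : ℝ => z + ((s / T : ℝ) : ℂ) • (w - z))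
    (R := fun _ => R) hT0.le (fun _ _ => hR)
    (fun s hs => hU _ ⟨by have := hs.1; positivity, by rw [div_le_one hT0]; exact hs.2⟩)
    (fun _ _ _ _ _ => by linarith) (by
      intro s hs s' hs' hss
      have h1 : z + ((s' / T : ℝ) : ℂ) • (w - z) - (z + ((s / T : ℝ) : ℂ) • (w - z)) =
          (((s' - s) / T : ℝ) : ℂ) • (w - z) := by
        rw [add_sub_add_left_eq_sub, ← sub_smul]
        congr 1
        push_cast
        ring
      rw [h1, norm_smul, Complex.norm_real, Real.norm_eq_abs, abs_div, abs_of_pos hT0,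
        abs_of_nonneg (by linarith [hs'.1])]
      have h2 : s' - s ≤ 1 := by linarith
      calc (s' - s) / T * ‖w - z‖ ≤ 1 / T * ‖w - z‖ := by gcongr
        _ = R / 80 := by rw [hT]; field_simp)
  refine ⟨n, hn, ?_⟩
  simpa [hT0.ne'] using h

/-- a straight segment at height `ρ` in the quadrant tube -/
theorem ball_seg {b z p : ℂ × ℂ} {X ω₀ ω ρ : ℝ} (hω₀ : 0 < ω₀) (hω₀1 : ω₀ ≤ 1) (hω : 0 < ω)
    (hω1 : ω ≤ 1) (hρ : 0 < ρ)
    (b1 : ω₀ * ρ ≤ -b.1.im) (b2 : ω₀ * ρ ≤ b.2.im) (hb : dist b p ≤ X * ρ)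
    (h1 : ω * ρ ≤ -z.1.im) (h2 : ω * ρ ≤ z.2.im) (hz : dist z p ≤ X * ρ) :
    ∀ t ∈ Icc (0 : ℝ) 1, ball (lift b ρ + (t : ℂ) • (lift z ρ - lift b ρ)) (ρ / 2) ⊆
      QT (ρ / 2) p ((X + 2) * ρ) := by
  have hlb := dist_lift (by positivity) b1 b2 (by nlinarith : ω₀ * ρ ≤ ρ)
  have hlz := dist_lift (by positivity) h1 h2 (by nlinarith : ω * ρ ≤ ρ)
  intro t ht y hy
  rw [mem_ball, dist_eq_norm] at hy
  set c : ℂ × ℂ := lift b ρ + (t : ℂ) • (lift z ρ - lift b ρ) with hc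
  have hy1 : ‖y.1 - c.1‖ < ρ / 2 := (norm_fst_le (y - c)).trans_lt hy
  have hy2 : ‖y.2 - c.2‖ < ρ / 2 := (norm_snd_le (y - c)).trans_lt hy
  have hi1 := (Complex.abs_im_le_norm (y.1 - c.1)).trans_lt hy1
  have hi2 := (Complex.abs_im_le_norm (y.2 - c.2)).trans_lt hy2
  rw [Complex.sub_im, abs_lt] at hi1 hi2
  have e1 : c.1.im = -max ρ (-b.1.im) + t * (-max ρ (-z.1.im) - -max ρ (-b.1.im)) := by
    rw [hc]
    simp [lift]
  have e2 : c.2.im = max ρ b.2.im + t * (max ρ z.2.im - max ρ b.2.im) := by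
    rw [hc]
    simp [lift]
  have m1 := le_max_left ρ (-b.1.im)
  have m2 := le_max_left ρ (-z.1.im)
  have m3 := le_max_left ρ b.2.im
  have m4 := le_max_left ρ z.2.im
  have hc1 : c.1.im ≤ -ρ := by
    rw [e1]
    nlinarith [ht.1, ht.2]
  have hc2 : ρ ≤ c.2.im := by
    rw [e2]
    nlinarith [ht.1, ht.2]
  refine ⟨by linarith, by linarith, ?_⟩
  have hcp : ‖c - p‖ ≤ (X + 1) * ρ := by
    have h3 : c - p = ((1 - t : ℝ) : ℂ) • (lift b ρ - p) + (t : ℂ) • (lift z ρ - p) := by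
      rw [hc, Complex.ofReal_sub, Complex.ofReal_one]
      module
    rw [h3]
    have h4 : ‖lift b ρ - p‖ ≤ (X + 1) * ρ := by
      have := norm_sub_le_norm_sub_add_norm_sub (lift b ρ) b p
      rw [← dist_eq_norm b p] at this
      linarith
    have h5 : ‖lift z ρ - p‖ ≤ (X + 1) * ρ := by
      have := norm_sub_le_norm_sub_add_norm_sub (lift z ρ) z p
      rw [← dist_eq_norm z p] at this
      linarith
    calc ‖((1 - t : ℝ) : ℂ) • (lift b ρ - p) + (t : ℂ) • (lift z ρ - p)‖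
        ≤ ‖((1 - t : ℝ) : ℂ) • (lift b ρ - p)‖ + ‖(t : ℂ) • (lift z ρ - p)‖ := norm_add_le _ _
      _ = (1 - t) * ‖lift b ρ - p‖ + t * ‖lift z ρ - p‖ := by
        rw [norm_smul, norm_smul, Complex.norm_real, Complex.norm_real, Real.norm_eq_abs,
          Real.norm_eq_abs, abs_of_nonneg (by linarith [ht.2]), abs_of_nonneg ht.1]
      _ ≤ (1 - t) * ((X + 1) * ρ) + t * ((X + 1) * ρ) := by
        have := ht.1
        have := ht.2
        gcongr
      _ = (X + 1) * ρ := by ring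
  have hd : dist y p ≤ ‖y - c‖ + ‖c - p‖ := by
    rw [dist_eq_norm]
    exact norm_sub_le_norm_sub_add_norm_sub _ _ _
  linarith

/-- the number of steps of the quadrant chain -/
noncomputable def NQ (X ω₀ ω : ℝ) : ℝ :=
  (Real.log (1 / ω₀) + Real.log (1 / ω)) / Real.log (1 + 1 / 160) + 320 * X + 323

/-- **the finite chain in the quadrant tube** -/
theorem quad_ch {b z p : ℂ × ℂ} {X ω₀ ω ρ : ℝ} (hω₀ : 0 < ω₀) (hω₀1 : ω₀ ≤ 1) (hω : 0 < ω)
    (hω1 : ω ≤ 1) (hρ : 0 < ρ)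
    (b1 : ω₀ * ρ ≤ -b.1.im) (b2 : ω₀ * ρ ≤ b.2.im) (hb : dist b p ≤ X * ρ)
    (h1 : ω * ρ ≤ -z.1.im) (h2 : ω * ρ ≤ z.2.im) (hz : dist z p ≤ X * ρ) :
    ∃ n : ℕ, (n : ℝ) ≤ NQ X ω₀ ω ∧
      Ch (QT (min ω₀ ω * ρ / 2) p ((X + 2) * ρ)) n b (ω₀ * ρ / 2) z (ω * ρ / 2) := by
  have hωρ : 0 < ω * ρ := by positivity
  have hω₀ρ : 0 < ω₀ * ρ := by positivity
  have hle : ω * ρ ≤ ρ := by nlinarith
  have hle' : ω₀ * ρ ≤ ρ := by nlinarith
  have hle1 : min ω₀ ω * ρ / 2 ≤ ω₀ * ρ / 2 := by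
    have := min_le_left ω₀ ω
    gcongr
  have hle2 : min ω₀ ω * ρ / 2 ≤ ω * ρ / 2 := by
    have := min_le_right ω₀ ω
    gcongr
  have hle3 : min ω₀ ω * ρ / 2 ≤ ρ / 2 := by
    have h := min_le_right ω₀ ω
    have : min ω₀ ω * ρ ≤ 1 * ρ := by gcongr; exact h.trans hω1
    linarith
  obtain ⟨n1, hn1, u1⟩ := Ch.path_up (U := QT (ω₀ * ρ / 2) p ((X + 2) * ρ)) (γ := lift b)
    (a := ω₀ * ρ) (b := ρ) (c := 1 / 2) hω₀ρ hle' (by norm_num)
    (fun s _ t _ => norm_lift_sub b s t) (fun t ht => ball_lift hω₀ρ.le b1 b2 hb ht hρ)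
  obtain ⟨n3, hn3, u3⟩ := Ch.path_down (U := QT (ω * ρ / 2) p ((X + 2) * ρ)) (γ := lift z)
    (a := ω * ρ) (b := ρ) (c := 1 / 2) hωρ hle (by norm_num) (by norm_num)
    (fun s _ t _ => norm_lift_sub z s t) (fun t ht => ball_lift hωρ.le h1 h2 hz ht hρ)
  obtain ⟨n2, hn2, u2⟩ := Ch.path_seg (U := QT (ρ / 2) p ((X + 2) * ρ)) (z := lift b ρ)
    (w := lift z ρ) (R := ρ / 2) (by positivity) (ball_seg hω₀ hω₀1 hω hω1 hρ b1 b2 hb h1 h2 hz)
  rw [lift_self b1 b2] at u1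
  rw [lift_self h1 h2] at u3
  have e1 : (1 : ℝ) / 2 * (ω₀ * ρ) = ω₀ * ρ / 2 := by ring
  have e2 : (1 : ℝ) / 2 * (ω * ρ) = ω * ρ / 2 := by ring
  have e3 : (1 : ℝ) / 2 * ρ = ρ / 2 := by ring
  rw [e1, e3] at u1
  rw [e2, e3] at u3
  have v1 := u1.mono_set (QT_mono hle1 (le_refl ((X + 2) * ρ)))
  have v2 := u2.mono_set (QT_mono hle3 (le_refl ((X + 2) * ρ)))
  have v3 := u3.mono_set (QT_mono hle2 (le_refl ((X + 2) * ρ)))
  refine ⟨n1 + n2 + n3, ?_, (v1.trans v2).trans v3⟩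
  have hnorm : ‖lift z ρ - lift b ρ‖ ≤ (2 * X + 2) * ρ := by
    have hlb := dist_lift (by positivity) b1 b2 hle'
    have hlz := dist_lift (by positivity) h1 h2 hle
    have e : lift z ρ - lift b ρ = (lift z ρ - z) + (z - p) + (p - b) + (b - lift b ρ) := by abel
    rw [e]
    have t1 := norm_add_le ((lift z ρ - z) + (z - p) + (p - b)) (b - lift b ρ)
    have t2 := norm_add_le ((lift z ρ - z) + (z - p)) (p - b)
    have t3 := norm_add_le (lift z ρ - z) (z - p)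
    rw [← dist_eq_norm z p] at t3
    rw [norm_sub_rev p b, ← dist_eq_norm b p] at t2
    rw [norm_sub_rev b (lift b ρ)] at t1
    linarith
  have h6 : 80 * ‖lift z ρ - lift b ρ‖ / (ρ / 2) ≤ 320 * X + 320 := by
    rw [div_le_iff₀ (by positivity)]
    nlinarith
  have e4 : ρ / (ω₀ * ρ) = 1 / ω₀ := by field_simp
  have e5 : ρ / (ω * ρ) = 1 / ω := by field_simp
  have e6 : (1 : ℝ) + 1 / 2 / 80 = 1 + 1 / 160 := by norm_num
  rw [e4, e6] at hn1
  rw [e5, e6] at hn3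
  unfold NQ
  rw [add_div]
  push_cast
  linarith

end Vale.Agent.P097.H881
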