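import Vale.Agent.P097.H881.Sc2

/-!
Composable form of the Schottky chain with R2 points: relation `JR U a z ρ w σ` and paths.
-/

open Complex Metric Filter Topology Set

namespace Vale.Agent.P097.H881

open Vale.Agent.P097.H264

variable {E : Type*} [NormedAddCommGroup E] [NormedSpace ℂ E]

/-- from every good base point near `z` (within `ρ`) one reaches a good point near `w`
(within `σ`) with growth `a` of the state -/
def JR (U : Set E) (a : ℝ) (z : E) (ρ : ℝ) (w : E) (σ : ℝ) : Prop :=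
  ∀ (M : ℝ) (F G : E → ℂ), RG U M F G → ∀ z', ‖z' - z‖ ≤ ρ → G z' ≠ 0 →
    ∃ w', ‖w' - w‖ ≤ σ ∧ G w' ≠ 0 ∧ St M F G w' ≤ a * St M F G z' ∧
      ‖F w' - F z'‖ ≤ (a - 1) * St M F G z'

theorem St_nonneg {U : Set E} {M : ℝ} {F G : E → ℂ} (h : RG U M F G) {z : E} (hz : z ∈ U)
    (h0 : G z ≠ 0) : 0 ≤ St M F G z := by linarith [St_pos h hz h0]

theorem JR.refl (U : Set E) (z : E) (ρ : ℝ) : JR U 1 z ρ z ρ :=
  fun _ _ _ _ z' hz' h0 => ⟨z', hz', h0, by simp, by simp⟩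

theorem JR.mono_radius {U : Set E} {a : ℝ} {z w : E} {ρ ρ' σ σ' : ℝ} (h : JR U a z ρ w σ)
    (hρ : ρ' ≤ ρ) (hσ : σ ≤ σ') : JR U a z ρ' w σ' := by
  intro M F G hRG z' hz' h0
  obtain ⟨w', h1, h2⟩ := h M F G hRG z' (hz'.trans hρ) h0
  exact ⟨w', h1.trans hσ, h2⟩

theorem JR.mono_set {U V : Set E} {a : ℝ} {z w : E} {ρ σ : ℝ} (h : JR U a z ρ w σ) (hV : U ⊆ V) :
    JR V a z ρ w σ := fun M F G hRG => h M F G (hRG.mono hV)

theorem JR.mono {U : Set E} {a b : ℝ} {z w : E} {ρ σ : ℝ} (h : JR U a z ρ w σ) (hab : a ≤ b)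
    (hz : closedBall z ρ ⊆ U) : JR U b z ρ w σ := by
  intro M F G hRG z' hz' h0
  obtain ⟨w', h1, h2, h3, h4⟩ := h M F G hRG z' hz' h0
  have hS := St_nonneg hRG (hz (by rwa [mem_closedBall, dist_eq_norm])) h0
  exact ⟨w', h1, h2, h3.trans (by gcongr), h4.trans (by gcongr)⟩

theorem JR.trans {U : Set E} {a b : ℝ} {z w v : E} {ρ σ τ : ℝ} (h : JR U a z ρ w σ)
    (h' : JR U b w σ v τ) (hb : 1 ≤ b) : JR U (a * b) z ρ v τ := by
  intro M F G hRG z' hz' h0
  obtain ⟨w', h1, h2, h3, h4⟩ := h M F G hRG z' hz' h0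
  obtain ⟨v', k1, k2, k3, k4⟩ := h' M F G hRG w' h1 h2
  refine ⟨v', k1, k2, ?_, ?_⟩
  · calc St M F G v' ≤ b * St M F G w' := k3
      _ ≤ b * (a * St M F G z') := by gcongr
      _ = a * b * St M F G z' := by ring
  · have h5 : ‖F v' - F z'‖ ≤ ‖F v' - F w'‖ + ‖F w' - F z'‖ :=
      norm_sub_le_norm_sub_add_norm_sub _ _ _
    have h6 : (b - 1) * St M F G w' ≤ (b - 1) * (a * St M F G z') := by
      gcongr
    calc ‖F v' - F z'‖ ≤ (b - 1) * (a * St M F G z') + (a - 1) * St M F G z' := by linarith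
      _ = (a * b - 1) * St M F G z' := by ring

/-- one step: radii `R / 80` and `R' / 80`, `R ≤ 2 R'` -/
theorem JR.one_step {U : Set E} {z w : E} {R R' : ℝ} (hR : 0 < R) (hRR : R ≤ 2 * R')
    (hU : ball z R ⊆ U) (hw : ‖w - z‖ ≤ R / 80) : JR U KR z (R / 80) w (R' / 80) := by
  intro M F G h z' hz' h0
  have hsub : ball z' (79 / 80 * R) ⊆ U := by
    refine Subset.trans ?_ hU
    intro y hy
    rw [mem_ball, dist_eq_norm] at hy ⊢
    have : ‖y - z‖ ≤ ‖y - z'‖ + ‖z' - z‖ := norm_sub_le_norm_sub_add_norm_sub y z' z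
    linarith
  have haw : ‖w - z'‖ ≤ R / 40 := by
    have h1 : ‖w - z'‖ ≤ ‖w - z‖ + ‖z - z'‖ := norm_sub_le_norm_sub_add_norm_sub _ z z'
    rw [norm_sub_rev z z'] at h1
    linarith
  obtain ⟨b, hb1, hb2, hb3, hb4, hb5, hb6⟩ := (h.mono hsub).move (c := z') (a := w)
    (by positivity) h0 (by linarith)
  have hKR : KR = 14 + LS := rfl
  have hLS := LS_one
  have hS := St_pos (h.mono hsub) (mem_ball_self (by positivity)) h0
  refine ⟨b, by linarith, hb3, hb6.trans ?_, hb5.trans ?_⟩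
  · rw [hKR]; gcongr; linarith
  · rw [hKR]; gcongr; linarith

/-- **at every point near the end** -/
theorem JR.fin {U : Set E} {a : ℝ} {z w : E} {ρ R : ℝ} (h : JR U a z ρ w (R / 80)) (ha : 1 ≤ a)
    (hR : 0 < R) (hU : ball w R ⊆ U) {M : ℝ} {F G : E → ℂ} (hRG : RG U M F G) {z' : E}
    (hz' : ‖z' - z‖ ≤ ρ) (h0 : G z' ≠ 0) (hz'U : z' ∈ U) {v : E} (hv : ‖v - w‖ ≤ R / 80) :
    ‖F v - F z'‖ ≤ (KR * a - 1) * St M F G z' := by
  obtain ⟨w', h1, h2, h3, h4⟩ := h M F G hRG z' hz' h0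
  have hsub : ball w' (79 / 80 * R) ⊆ U := by
    refine Subset.trans ?_ hU
    intro y hy
    rw [mem_ball, dist_eq_norm] at hy ⊢
    have : ‖y - w‖ ≤ ‖y - w'‖ + ‖w' - w‖ := norm_sub_le_norm_sub_add_norm_sub y w' w
    linarith
  have hvw : ‖v - w'‖ ≤ R / 40 := by
    have h1' : ‖v - w'‖ ≤ ‖v - w‖ + ‖w - w'‖ := norm_sub_le_norm_sub_add_norm_sub _ w w'
    rw [norm_sub_rev w w'] at h1'
    linarith
  have h5 := (hRG.mono hsub).step (z := v) (by positivity) h2 (by linarith)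
  have h6 : ‖F v - F z'‖ ≤ ‖F v - F w'‖ + ‖F w' - F z'‖ := norm_sub_le_norm_sub_add_norm_sub _ _ _
  have hLS := LS_one
  have hS := St_pos hRG hz'U h0
  have h7 : LS * St M F G w' ≤ LS * (a * St M F G z') := by gcongr
  have hKR : KR = 14 + LS := rfl
  have h8 : 0 ≤ a * St M F G z' := by positivity
  calc ‖F v - F z'‖ ≤ LS * (a * St M F G z') + (a - 1) * St M F G z' := by linarith
    _ ≤ (KR * a - 1) * St M F G z' := by rw [hKR]; linarith

/-- **paths in unit speed** -/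
theorem JR.path_unit {U : Set E} {γ : ℝ → E} {R : ℝ → ℝ} {T : ℝ} (hT : 0 ≤ T)
    (hR : ∀ s ∈ Icc 0 T, 0 < R s) (hU : ∀ s ∈ Icc 0 T, ball (γ s) (R s) ⊆ U)
    (hRR : ∀ s ∈ Icc 0 T, ∀ s' ∈ Icc s T, s' ≤ s + 1 → R s ≤ 2 * R s')
    (hγ : ∀ s ∈ Icc 0 T, ∀ s' ∈ Icc s T, s' ≤ s + 1 → ‖γ s' - γ s‖ ≤ R s / 80) :
    JR U (KR ^ (T + 1)) (γ 0) (R 0 / 80) (γ T) (R T / 80) := by
  have hKR := KR_one
  have hcb : closedBall (γ 0) (R 0 / 80) ⊆ U := by
    have h0 := hR 0 ⟨le_rfl, hT⟩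
    exact (closedBall_subset_ball (by linarith)).trans (hU 0 ⟨le_rfl, hT⟩)
  have key : ∀ n : ℕ, (n : ℝ) ≤ T → JR U (KR ^ (n : ℝ)) (γ 0) (R 0 / 80) (γ n) (R n / 80) := by
    intro n
    induction n with
    | zero => intro _; simpa using JR.refl U (γ 0) (R 0 / 80)
    | succ m ih =>
      intro hm
      push_cast at hm ⊢
      have hmT : (m : ℝ) ≤ T := by linarith
      have hmem : (m : ℝ) ∈ Icc 0 T := ⟨by positivity, hmT⟩
      have h1 := JR.one_step (hR _ hmem) (hRR m hmem (m + 1) ⟨by linarith, hm⟩ le_rfl) (hU _ hmem)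
        (hγ m hmem (m + 1) ⟨by linarith, hm⟩ le_rfl)
      have h2 := (ih hmT).trans h1 hKR
      rwa [Real.rpow_add_one (by linarith)]
  have hn := Nat.floor_le hT
  have hmem : ((⌊T⌋₊ : ℕ) : ℝ) ∈ Icc 0 T := ⟨by positivity, hn⟩
  have h1 := JR.one_step (hR _ hmem) (hRR _ hmem T ⟨hn, le_rfl⟩ (Nat.lt_floor_add_one T).le)
    (hU _ hmem) (hγ _ hmem T ⟨hn, le_rfl⟩ (Nat.lt_floor_add_one T).le)
  have h2 := (key _ hn).trans h1 hKR
  refine h2.mono ?_ hcb
  rw [← Real.rpow_add_one (by linarith)]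
  exact Real.rpow_le_rpow_of_exponent_le hKR (by linarith)

/-- the exponent of a twisted cone of opening `c` -/
noncomputable def pR (c : ℝ) : ℝ := Real.log KR / Real.log (1 + c / 80)

theorem pR_nonneg {c : ℝ} (hc : 0 < c) : 0 ≤ pR c := by
  unfold pR
  have := Real.log_nonneg KR_one
  have : 0 < Real.log (1 + c / 80) := Real.log_pos (by linarith)
  positivity

theorem KR_pow_log {c x : ℝ} (hx : 0 < x) :
    KR ^ (Real.log x / Real.log (1 + c / 80) + 1) = KR * x ^ pR c := by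
  have hK : 0 < KR := by linarith [KR_one]
  rw [Real.rpow_add_one hK.ne', mul_comm]
  congr 1
  rw [Real.rpow_def_of_pos hK, Real.rpow_def_of_pos hx]
  unfold pR
  congr 1
  ring

/-- going up -/
theorem JR.path_up {U : Set E} {γ : ℝ → E} {a b c : ℝ} (ha : 0 < a) (hab : a ≤ b) (hc : 0 < c)
    (hγ : ∀ s ∈ Icc a b, ∀ t ∈ Icc a b, ‖γ t - γ s‖ ≤ |t - s|)
    (hU : ∀ t ∈ Icc a b, ball (γ t) (c * t) ⊆ U) :
    JR U (KR * (b / a) ^ pR c) (γ a) (c * a / 80) (γ b) (c * b / 80) := by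
  have hq : 1 < 1 + c / 80 := by linarith
  have hlq : 0 < Real.log (1 + c / 80) := Real.log_pos hq
  have hba : 1 ≤ b / a := by rw [le_div_iff₀ ha]; linarith
  set T := Real.log (b / a) / Real.log (1 + c / 80) with hT
  have hT0 : 0 ≤ T := by
    have := Real.log_nonneg hba
    positivity
  have hqT : (1 + c / 80) ^ T = b / a := by
    rw [Real.rpow_def_of_pos (by linarith), hT, mul_div_cancel₀ _ hlq.ne', Real.exp_log (by positivity)]
  have hmem : ∀ s ∈ Icc 0 T, a * (1 + c / 80) ^ s ∈ Icc a b := by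
    intro s hs
    constructor
    · have := Real.one_le_rpow hq.le hs.1
      nlinarith
    · have h1 : (1 + c / 80) ^ s ≤ b / a := by
        rw [← hqT]; exact Real.rpow_le_rpow_of_exponent_le hq.le hs.2
      rw [le_div_iff₀ ha] at h1
      linarith
  have h := JR.path_unit (U := U) (γ := fun s => γ (a * (1 + c / 80) ^ s))
    (R := fun s => c * (a * (1 + c / 80) ^ s)) hT0 (fun s _ => by positivity)
    (fun s hs => hU _ (hmem s hs)) ?_ ?_
  · simp only [Real.rpow_zero, mul_one, hqT] at h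
    rw [mul_div_cancel₀ _ ha.ne', hT, KR_pow_log (by positivity)] at h
    exact h
  · intro s hs s' hs' hss
    have h1 : (1 + c / 80) ^ s ≤ (1 + c / 80) ^ s' := Real.rpow_le_rpow_of_exponent_le hq.le hs'.1
    have h3 : 0 < (1 + c / 80) ^ s := by positivity
    have h4 : c * (a * (1 + c / 80) ^ s) ≤ c * (a * (1 + c / 80) ^ s') := by gcongr
    have h5 : 0 < c * (a * (1 + c / 80) ^ s) := by positivity
    linarith
  · intro s hs s' hs' hss
    have hs'' : s' ∈ Icc 0 T := ⟨hs.1.trans hs'.1, hs'.2⟩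
    refine (hγ _ (hmem s hs) _ (hmem s' hs'')).trans ?_
    have h1 : (1 + c / 80) ^ s ≤ (1 + c / 80) ^ s' := Real.rpow_le_rpow_of_exponent_le hq.le hs'.1
    have h2 : (1 + c / 80) ^ s' ≤ (1 + c / 80) ^ s * (1 + c / 80) := by
      rw [← Real.rpow_add_one (by linarith)]
      exact Real.rpow_le_rpow_of_exponent_le hq.le hss
    have h3 : 0 < (1 + c / 80) ^ s := by positivity
    rw [← mul_sub, abs_mul, abs_of_pos ha, abs_of_nonneg (by linarith)]
    calc a * ((1 + c / 80) ^ s' - (1 + c / 80) ^ s)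
        ≤ a * ((1 + c / 80) ^ s * (1 + c / 80) - (1 + c / 80) ^ s) := by gcongr
      _ = c * (a * (1 + c / 80) ^ s) / 80 := by ring

/-- going down (`c ≤ 80`) -/
theorem JR.path_down {U : Set E} {γ : ℝ → E} {a b c : ℝ} (ha : 0 < a) (hab : a ≤ b) (hc : 0 < c)
    (hc80 : c ≤ 80) (hγ : ∀ s ∈ Icc a b, ∀ t ∈ Icc a b, ‖γ t - γ s‖ ≤ |t - s|)
    (hU : ∀ t ∈ Icc a b, ball (γ t) (c * t) ⊆ U) :
    JR U (KR * (b / a) ^ pR c) (γ b) (c * b / 80) (γ a) (c * a / 80) := by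
  have hq : 1 < 1 + c / 80 := by linarith
  have hq0 : (0 : ℝ) < 1 + c / 80 := by linarith
  have hlq : 0 < Real.log (1 + c / 80) := Real.log_pos hq
  have hb : 0 < b := by linarith
  have hba : 1 ≤ b / a := by rw [le_div_iff₀ ha]; linarith
  set T := Real.log (b / a) / Real.log (1 + c / 80) with hT
  have hT0 : 0 ≤ T := by
    have := Real.log_nonneg hba
    positivity
  have hqT : (1 + c / 80) ^ (-T) = a / b := by
    rw [Real.rpow_neg hq0.le, Real.rpow_def_of_pos hq0, hT, mul_div_cancel₀ _ hlq.ne',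
      Real.exp_log (by positivity), inv_div]
  have hmem : ∀ s ∈ Icc 0 T, b * (1 + c / 80) ^ (-s) ∈ Icc a b := by
    intro s hs
    constructor
    · have h1 : a / b ≤ (1 + c / 80) ^ (-s) := by
        rw [← hqT]; exact Real.rpow_le_rpow_of_exponent_le hq.le (by linarith [hs.2])
      rw [div_le_iff₀ hb] at h1
      linarith
    · have h1 : (1 + c / 80) ^ (-s) ≤ 1 :=
        Real.rpow_le_one_of_one_le_of_nonpos hq.le (by linarith [hs.1])
      nlinarith
  have hstep : ∀ s s' : ℝ, s' ≤ s + 1 →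
      (1 + c / 80) ^ (-s) ≤ (1 + c / 80) ^ (-s') * (1 + c / 80) := by
    intro s s' hss
    rw [← Real.rpow_add_one hq0.ne']
    exact Real.rpow_le_rpow_of_exponent_le hq.le (by linarith)
  have h := JR.path_unit (U := U) (γ := fun s => γ (b * (1 + c / 80) ^ (-s)))
    (R := fun s => c * (b * (1 + c / 80) ^ (-s))) hT0 (fun s _ => by positivity)
    (fun s hs => hU _ (hmem s hs)) ?_ ?_
  · simp only [neg_zero, Real.rpow_zero, mul_one, hqT] at h
    rw [mul_div_cancel₀ _ hb.ne', hT, KR_pow_log (by positivity)] at h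
    exact h
  · intro s hs s' hs' hss
    have h2 := hstep s s' hss
    have h3 : 0 < (1 + c / 80) ^ (-s') := by positivity
    have h4 : (1 + c / 80) ^ (-s) ≤ 2 * (1 + c / 80) ^ (-s') := by nlinarith
    calc c * (b * (1 + c / 80) ^ (-s)) ≤ c * (b * (2 * (1 + c / 80) ^ (-s'))) := by gcongr
      _ = 2 * (c * (b * (1 + c / 80) ^ (-s'))) := by ring
  · intro s hs s' hs' hss
    have hs'' : s' ∈ Icc 0 T := ⟨hs.1.trans hs'.1, hs'.2⟩
    refine (hγ _ (hmem s hs) _ (hmem s' hs'')).trans ?_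
    have h1 : (1 + c / 80) ^ (-s') ≤ (1 + c / 80) ^ (-s) :=
      Real.rpow_le_rpow_of_exponent_le hq.le (by linarith [hs'.1])
    have h2 := hstep s s' hss
    have h3 : 0 < (1 + c / 80) ^ (-s') := by positivity
    rw [← mul_sub, abs_mul, abs_of_pos hb, abs_of_nonpos (by linarith), neg_sub]
    have h4 : (1 + c / 80) ^ (-s) - (1 + c / 80) ^ (-s') ≤ c / 80 * (1 + c / 80) ^ (-s) := by
      nlinarith
    calc b * ((1 + c / 80) ^ (-s) - (1 + c / 80) ^ (-s'))
        ≤ b * (c / 80 * (1 + c / 80) ^ (-s)) := by gcongr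
      _ = c * (b * (1 + c / 80) ^ (-s)) / 80 := by ring

/-- straight segments with a tube of radius `R` -/
theorem JR.path_seg {U : Set E} {z w : E} {R : ℝ} (hR : 0 < R)
    (hU : ∀ t ∈ Icc (0 : ℝ) 1, ball (z + (t : ℂ) • (w - z)) R ⊆ U) :
    JR U (KR ^ (80 * ‖w - z‖ / R + 1)) z (R / 80) w (R / 80) := by
  have hKR := KR_one
  have hcb : closedBall z (R / 80) ⊆ U := by
    have h0 := hU 0 ⟨le_rfl, zero_le_one⟩
    rw [Complex.ofReal_zero, zero_smul, add_zero] at h0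
    exact (closedBall_subset_ball (by linarith)).trans h0
  rcases eq_or_lt_of_le (norm_nonneg (w - z)) with h0 | h0
  · have hzw : w = z := by
      rw [← sub_eq_zero]; exact norm_eq_zero.mp h0.symm
    subst hzw
    refine (JR.refl U w (R / 80)).mono ?_ hcb
    rw [← h0]
    simp [hKR]
  set T := 80 * ‖w - z‖ / R with hT
  have hT0 : 0 < T := by positivity
  have h := JR.path_unit (U := U) (γ := fun s : ℝ => z + ((s / T : ℝ) : ℂ) • (w - z))
    (R := fun _ => R) hT0.le (fun _ _ => hR)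
    (fun s hs => hU _ ⟨by have := hs.1; positivity, by rw [div_le_one hT0]; exact hs.2⟩)
    (fun _ _ _ _ _ => by linarith) ?_
  · simpa [hT0.ne'] using h
  · intro s hs s' hs' hss
    have h1 : z + ((s' / T : ℝ) : ℂ) • (w - z) - (z + ((s / T : ℝ) : ℂ) • (w - z)) =
        (((s' - s) / T : ℝ) : ℂ) • (w - z) := by
      rw [add_sub_add_left_eq_sub, ← sub_smul]
      congr 1
      push_cast
      ring
    rw [h1, norm_smul, Complex.norm_real, Real.norm_eq_abs, abs_div, abs_of_pos hT0,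
      abs_of_nonneg (by linarith [hs'.1])]
    have h2 : s' - s ≤ 1 := by linarith
    calc (s' - s) / T * ‖w - z‖ ≤ 1 / T * ‖w - z‖ := by gcongr
      _ = R / 80 := by rw [hT]; field_simp

end Vale.Agent.P097.H881
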