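import Mathlib

/-!
Two constants by rotation: a holomorphic function that is not small at the centre is not small
near any prescribed point. Maximum modulus only, any complex normed space.
-/

open Complex Metric Filter Topology Set

namespace Vale.Agent.P097.H881

/-- every unimodular number is rotated near `1` by an `m`-th root of unity -/
theorem exists_rot {m : ℕ} (hm : 0 < m) {t : ℂ} (ht : ‖t‖ = 1) :
    ∃ k < m, ‖exp (2 * Real.pi * k / m * I) * t - 1‖ ≤ Real.pi / m := by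
  have hmR : (0 : ℝ) < m := by exact_mod_cast hm
  have hmC : (m : ℂ) ≠ 0 := by exact_mod_cast hm.ne'
  set θ : ℝ := arg t with hθ
  have htθ : t = exp (θ * I) := by
    have := Complex.norm_mul_exp_arg_mul_I t
    rw [ht] at this
    simpa using this.symm
  set K : ℤ := round (-(θ * m / (2 * Real.pi))) with hK
  have hKabs : |-(θ * m / (2 * Real.pi)) - K| ≤ 1 / 2 := abs_sub_round _
  set k : ℤ := K % m with hk
  have hk0 : 0 ≤ k := Int.emod_nonneg _ (by exact_mod_cast hm.ne')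
  have hkm : k < m := Int.emod_lt_of_pos _ (by exact_mod_cast hm)
  refine ⟨k.toNat, by omega, ?_⟩
  have hkN : ((k.toNat : ℕ) : ℂ) = ((k : ℤ) : ℂ) := by
    have : ((k.toNat : ℕ) : ℤ) = k := Int.toNat_of_nonneg hk0
    exact_mod_cast congrArg (fun x : ℤ => (x : ℂ)) this
  have hKk : (K : ℂ) = k + m * (K / m : ℤ) := by
    have := (Int.emod_add_mul_ediv K m).symm
    rw [← hk] at this
    exact_mod_cast congrArg (fun x : ℤ => (x : ℂ)) this
  set φ : ℝ := 2 * Real.pi * K / m + θ with hφ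
  have hexp : exp (2 * Real.pi * (k.toNat : ℕ) / m * I) * t = exp (I * φ) := by
    rw [htθ, ← Complex.exp_add, Complex.exp_eq_exp_iff_exists_int]
    refine ⟨-(K / m : ℤ), ?_⟩
    rw [hkN, hφ]
    push_cast
    rw [hKk]
    field_simp
    ring
  rw [hexp]
  refine (Real.norm_exp_I_mul_ofReal_sub_one_le).trans ?_
  rw [Real.norm_eq_abs]
  have h1 : φ = -(2 * Real.pi / m) * (-(θ * m / (2 * Real.pi)) - K) := by
    rw [hφ]
    field_simp
    ring
  rw [h1, abs_mul, abs_neg, abs_of_pos (by positivity)]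
  calc 2 * Real.pi / m * |-(θ * m / (2 * Real.pi)) - K| ≤ 2 * Real.pi / m * (1 / 2) := by gcongr
    _ = Real.pi / m := by ring

/-- one variable form on the unit circle -/
theorem rot_one {f : ℂ → ℂ} {M : ℝ} {m : ℕ} (hm : 0 < m) (hf : DiffContOnCl ℂ f (ball 0 1))
    (hM : ∀ z ∈ closedBall (0 : ℂ) 1, ‖f z‖ ≤ M) :
    ∃ t : ℂ, ‖t‖ = 1 ∧ ‖t - 1‖ ≤ Real.pi / m ∧ ‖f 0‖ ^ m ≤ ‖f t‖ * M ^ (m - 1) := by
  have hM0 : 0 ≤ M := (norm_nonneg _).trans (hM 0 (by simp))
  set ω : ℕ → ℂ := fun k => exp (2 * Real.pi * k / m * I) with hω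
  have hω1 : ∀ k, ‖ω k‖ = 1 := by
    intro k
    rw [hω]
    simp only []
    rw [show (2 * Real.pi * k / m * I : ℂ) = ((2 * Real.pi * k / m : ℝ) : ℂ) * I by push_cast; ring]
    exact Complex.norm_exp_ofReal_mul_I _
  set g : ℂ → ℂ := fun z => ∏ k ∈ Finset.range m, f (ω k * z) with hg
  have hmaps : ∀ k, MapsTo (fun z : ℂ => ω k * z) (ball 0 1) (ball 0 1) := by
    intro k z hz
    rw [mem_ball_zero_iff] at hz ⊢
    rwa [norm_mul, hω1, one_mul]
  have hcl : closure (ball (0 : ℂ) 1) = closedBall 0 1 := closure_ball _ one_ne_zero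
  have hgd : DiffContOnCl ℂ g (ball 0 1) := by
    constructor
    · refine DifferentiableOn.fun_finsetProd fun k _ => ?_
      exact hf.differentiableOn.comp (by fun_prop) (hmaps k)
    · rw [hcl]
      refine continuousOn_finsetProd _ fun k _ => ?_
      refine (hcl ▸ hf.continuousOn).comp (by fun_prop) ?_
      intro z hz
      rw [mem_closedBall_zero_iff] at hz ⊢
      rwa [norm_mul, hω1, one_mul]
  obtain ⟨t0, ht0, hmax⟩ := Complex.exists_mem_frontier_isMaxOn_norm (isBounded_ball)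
    ⟨(0 : ℂ), mem_ball_self one_pos⟩ hgd
  rw [frontier_ball _ one_ne_zero, mem_sphere_zero_iff_norm] at ht0
  have h0 : ‖g 0‖ ≤ ‖g t0‖ := hmax (subset_closure (mem_ball_self one_pos))
  obtain ⟨k, hkm, hk⟩ := exists_rot hm ht0
  refine ⟨ω k * t0, by rw [norm_mul, hω1, ht0, one_mul], hk, ?_⟩
  have hg0 : ‖g 0‖ = ‖f 0‖ ^ m := by
    rw [hg]
    simp only [mul_zero, Finset.prod_const, Finset.card_range, norm_pow]
  rw [hg0] at h0
  refine h0.trans ?_
  rw [hg]
  simp only []
  rw [norm_prod, ← Finset.mul_prod_erase _ _ (Finset.mem_range.mpr hkm)]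
  refine mul_le_mul_of_nonneg_left ?_ (norm_nonneg _)
  calc ∏ x ∈ (Finset.range m).erase k, ‖f (ω x * t0)‖
      ≤ ∏ _x ∈ (Finset.range m).erase k, M := by
        refine Finset.prod_le_prod (fun _ _ => norm_nonneg _) fun x _ => hM _ ?_
        rw [mem_closedBall_zero_iff, norm_mul, hω1, ht0, one_mul]
    _ = M ^ (m - 1) := by
        rw [Finset.prod_const, Finset.card_erase_of_mem (Finset.mem_range.mpr hkm),
          Finset.card_range]

variable {E : Type*} [NormedAddCommGroup E] [NormedSpace ℂ E]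

/-- **two constants by rotation** -/
theorem rot {G : E → ℂ} {c a : E} {R M : ℝ} {m : ℕ} (hm : 0 < m)
    (hG : DifferentiableOn ℂ G (ball c R)) (hM : ∀ y ∈ ball c R, ‖G y‖ ≤ M) (ha : ‖a - c‖ < R) :
    ∃ t : ℂ, ‖t‖ = 1 ∧ ‖t - 1‖ ≤ Real.pi / m ∧
      ‖G c‖ ^ m ≤ ‖G (c + t • (a - c))‖ * M ^ (m - 1) := by
  have hmaps : MapsTo (fun t : ℂ => c + t • (a - c)) (closedBall 0 1) (ball c R) := by
    intro t ht
    rw [mem_closedBall_zero_iff] at ht
    rw [mem_ball, dist_eq_norm, add_sub_cancel_left, norm_smul]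
    calc ‖t‖ * ‖a - c‖ ≤ 1 * ‖a - c‖ := by gcongr
      _ < R := by linarith
  have hd : DifferentiableOn ℂ (fun t : ℂ => G (c + t • (a - c))) (closedBall 0 1) :=
    hG.comp (by fun_prop) hmaps
  obtain ⟨t, h1, h2, h3⟩ := rot_one (f := fun t : ℂ => G (c + t • (a - c))) (M := M) hm
    (DifferentiableOn.diffContOnCl (by rwa [closure_ball _ one_ne_zero]))
    (fun z hz => hM _ (hmaps hz))
  exact ⟨t, h1, h2, by simpa using h3⟩

end Vale.Agent.P097.H881
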