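import Vale.Agent.P097.H881.Sc
import Vale.Agent.P097.H881.Rot

/-!
The Schottky chain in several variables with R2 points: `exp F = 1` only where `G = 0`,
`|G| ≤ M`. The state `1 + |Re F| + log (M / |G|)` grows at most by a constant factor per step of a
chain of balls; no counting hypothesis.
-/

open Complex Metric Filter Topology Set

namespace Vale.Agent.P097.H881

open Vale.Agent.P097.H264

variable {E : Type*} [NormedAddCommGroup E] [NormedSpace ℂ E]

/-- data of a window with R2 points: `F = log E_j ^ 2`, `G = F' o theta_j` -/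
structure RG (U : Set E) (M : ℝ) (F G : E → ℂ) : Prop where
  hF : DifferentiableOn ℂ F U
  hG : DifferentiableOn ℂ G U
  one : ∀ y ∈ U, exp (F y) = 1 → G y = 0
  bd : ∀ y ∈ U, ‖G y‖ ≤ M

theorem RG.mono {U V : Set E} {M : ℝ} {F G : E → ℂ} (h : RG U M F G) (hV : V ⊆ U) : RG V M F G :=
  ⟨h.hF.mono hV, h.hG.mono hV, fun y hy => h.one y (hV hy), fun y hy => h.bd y (hV hy)⟩

/-- the state -/
noncomputable def St (M : ℝ) (F G : E → ℂ) (z : E) : ℝ := 1 + |(F z).re| + Real.log (M / ‖G z‖)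

/-- **one step with R2 points** -/
theorem RG.step {F G : E → ℂ} {c z : E} {R M : ℝ} (hR : 0 < R) (h : RG (ball c R) M F G)
    (hc : G c ≠ 0) (hz : ‖z - c‖ ≤ R / 32) : ‖F z - F c‖ ≤ LS * St M F G c := by
  have hGc : 0 < ‖G c‖ := norm_pos_iff.mpr hc
  have hGM : ‖G c‖ ≤ M := h.bd c (mem_ball_self hR)
  have hM : 0 < M := hGc.trans_le hGM
  set L : ℝ := Real.log (M / ‖G c‖) with hL
  have hL0 : 0 ≤ L := Real.log_nonneg ((one_le_div hGc).mpr hGM)
  set N : ℕ := ⌊L⌋₊ with hN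
  have hNL : (N : ℝ) ≤ L := Nat.floor_le hL0
  have hLN : L < N + 1 := Nat.lt_floor_add_one L
  set φ : ℂ → E := fun t => c + t • (z - c) with hφ
  have hmap : MapsTo φ (ball 0 32) (ball c R) := by
    intro t ht
    rw [mem_ball_zero_iff] at ht
    rw [hφ, mem_ball, dist_eq_norm, add_sub_cancel_left, norm_smul]
    rcases eq_or_lt_of_le (norm_nonneg (z - c)) with h0 | h0
    · rw [← h0, mul_zero]; exact hR
    · calc ‖t‖ * ‖z - c‖ < 32 * ‖z - c‖ := by gcongr
        _ ≤ R := by linarith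
  have hφd : DifferentiableOn ℂ φ (ball 0 32) := by rw [hφ]; fun_prop
  have hφ0 : φ 0 = c := by simp [hφ]
  have hφ1 : φ 1 = z := by simp [hφ]
  have hcount : {t ∈ closedBall (0 : ℂ) 8 | G (φ t) = 0}.encard ≤ N := by
    refine jensen_encard (M := M) (R := 32) (by norm_num) (by norm_num) (h.hG.comp hφd hmap)
      (fun t ht => h.bd _ (hmap ht)) ?_
    simp only [Function.comp_apply, hφ0]
    have h1 : M = ‖G c‖ * Real.exp L := by
      rw [hL, Real.exp_log (by positivity)]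
      field_simp
    have h2 : Real.exp L < Real.exp (N + 1) := Real.exp_lt_exp.mpr hLN
    have h3 : Real.exp (N + 1 : ℝ) ≤ 4 ^ (N + 1) := by
      have h4 : Real.exp 1 ≤ 4 := by
        have := Real.exp_one_lt_d9
        linarith
      calc Real.exp (N + 1 : ℝ) = Real.exp 1 ^ (N + 1) := by
            rw [← Real.exp_nat_mul]
            push_cast
            ring_nf
        _ ≤ 4 ^ (N + 1) := by gcongr
    have h5 : (8 / 32 : ℝ) ^ (N + 1) * 4 ^ (N + 1) = 1 := by
      rw [← mul_pow]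
      norm_num
    have h6 : (0 : ℝ) < (8 / 32 : ℝ) ^ (N + 1) := by positivity
    calc M * (8 / 32) ^ (N + 1) = ‖G c‖ * (Real.exp L * (8 / 32) ^ (N + 1)) := by rw [h1]; ring
      _ < ‖G c‖ * (4 ^ (N + 1) * (8 / 32) ^ (N + 1)) := by
          gcongr
          exact h2.trans_le h3
      _ = ‖G c‖ := by rw [mul_comm ((4 : ℝ) ^ (N + 1)), h5, mul_one]
  have hsub8 : ball (0 : ℂ) 8 ⊆ ball 0 32 := ball_subset_ball (by norm_num)
  have hss : {t ∈ ball (0 : ℂ) 8 | exp (F (φ t)) = 1} ⊆ {t ∈ closedBall (0 : ℂ) 8 | G (φ t) = 0} :=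
    fun t ht => ⟨ball_subset_closedBall ht.1, h.one _ (hmap (hsub8 ht.1)) ht.2⟩
  have hcount' : {t ∈ ball (0 : ℂ) 8 | exp (F (φ t)) = 1}.encard ≤ N :=
    (Set.encard_le_encard hss).trans hcount
  have hst := step_count (F := fun t => F (φ t)) (c := (0 : ℂ)) (z := 1) (R := 8) (by norm_num)
    ((h.hF.comp hφd hmap).mono hsub8) hcount' (by norm_num)
  rw [hφ1, hφ0] at hst
  refine hst.trans ?_
  have hLS := LS_one
  unfold St
  rw [← hL]
  have : (N : ℝ) + 1 + |(F c).re| ≤ 1 + |(F c).re| + L := by linarith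
  gcongr

theorem St_pos {U : Set E} {M : ℝ} {F G : E → ℂ} (h : RG U M F G) {z : E} (hz : z ∈ U)
    (h0 : G z ≠ 0) : 1 ≤ St M F G z := by
  have hGc : 0 < ‖G z‖ := norm_pos_iff.mpr h0
  have := Real.log_nonneg ((one_le_div hGc).mpr (h.bd z hz))
  unfold St
  linarith [abs_nonneg (F z).re]

/-- the base point can be moved -/
theorem RG.move {F G : E → ℂ} {c a : E} {R M : ℝ} (hR : 0 < R) (h : RG (ball c R) M F G)
    (hc : G c ≠ 0) (ha : ‖a - c‖ ≤ R / 32) :
    ∃ b : E, ‖b - c‖ = ‖a - c‖ ∧ ‖b - a‖ ≤ ‖a - c‖ / 4 ∧ G b ≠ 0 ∧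
      Real.log (M / ‖G b‖) ≤ 13 * Real.log (M / ‖G c‖) ∧
      ‖F b - F c‖ ≤ LS * St M F G c ∧ St M F G b ≤ (13 + LS) * St M F G c := by
  have hGc : 0 < ‖G c‖ := norm_pos_iff.mpr hc
  have hGM : ‖G c‖ ≤ M := h.bd c (mem_ball_self hR)
  have hM : 0 < M := hGc.trans_le hGM
  obtain ⟨t, ht1, ht2, ht3⟩ := rot (m := 13) (by norm_num) h.hG h.bd (a := a) (by linarith)
  set b : E := c + t • (a - c) with hb
  have hbc : ‖b - c‖ = ‖a - c‖ := by rw [hb, add_sub_cancel_left, norm_smul, ht1, one_mul]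
  have hba : b - a = (t - 1) • (a - c) := by rw [hb, sub_smul, one_smul]; abel
  have hpi : Real.pi / (13 : ℕ) ≤ 1 / 4 := by
    have := Real.pi_lt_d2
    push_cast
    linarith
  have hbb : b ∈ ball c R := by
    rw [mem_ball, dist_eq_norm, hbc]
    linarith
  norm_num at ht3
  have hGb0 : 0 < ‖G b‖ := by
    by_contra hcon
    have h0 : ‖G b‖ = 0 := le_antisymm (not_lt.mp hcon) (norm_nonneg _)
    rw [h0, zero_mul] at ht3
    have : 0 < ‖G c‖ ^ 13 := by positivity
    linarith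
  have hlog : Real.log (M / ‖G b‖) ≤ 13 * Real.log (M / ‖G c‖) := by
    have h1 := Real.log_le_log (by positivity) ht3
    rw [Real.log_pow, Real.log_mul hGb0.ne' (by positivity), Real.log_pow] at h1
    rw [Real.log_div hM.ne' hGb0.ne', Real.log_div hM.ne' hGc.ne']
    push_cast at h1
    linarith
  have hF := h.step hR hc (z := b) (by rw [hbc]; exact ha)
  refine ⟨b, hbc, ?_, norm_pos_iff.mp hGb0, hlog, hF, ?_⟩
  · rw [hba, norm_smul]
    calc ‖t - 1‖ * ‖a - c‖ ≤ 1 / 4 * ‖a - c‖ := by gcongr; exact ht2.trans hpi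
      _ = ‖a - c‖ / 4 := by ring
  · have h1 : |(F b).re| ≤ |(F c).re| + ‖F b - F c‖ := by
      have h5 := Complex.abs_re_le_norm (F b - F c)
      rw [Complex.sub_re] at h5
      have h6 := abs_sub_abs_le_abs_sub (F b).re (F c).re
      linarith
    have h2 : 0 ≤ Real.log (M / ‖G c‖) := Real.log_nonneg ((one_le_div hGc).mpr hGM)
    have h3 : (13 + LS) * St M F G c = 13 * (1 + |(F c).re| + Real.log (M / ‖G c‖)) +
      LS * St M F G c := by unfold St; ring
    rw [h3]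
    unfold St at hF ⊢
    linarith [abs_nonneg (F c).re]

/-- growth constant of one step with R2 points -/
noncomputable def KR : ℝ := 14 + LS

theorem KR_one : 1 ≤ KR := by unfold KR; linarith [LS_one]

/-- **the chain with R2 points** -/
theorem RG.chain {U : Set E} {M : ℝ} {F G : E → ℂ} (h : RG U M F G) {z : ℕ → E} {R : ℕ → ℝ} {n : ℕ}
    (hR : ∀ i ≤ n, 0 < R i) (hRR : ∀ i < n, R i ≤ 2 * R (i + 1))
    (hU : ∀ i ≤ n, ball (z i) (R i) ⊆ U) (hz : ∀ i < n, ‖z (i + 1) - z i‖ ≤ R i / 80)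
    (h0 : G (z 0) ≠ 0) :
    ∃ w : E, ‖w - z n‖ ≤ R n / 80 ∧ G w ≠ 0 ∧ St M F G w ≤ KR ^ n * St M F G (z 0) ∧
      ‖F w - F (z 0)‖ ≤ (KR ^ n - 1) * St M F G (z 0) := by
  induction n with
  | zero =>
    have hR0 := hR 0 le_rfl
    exact ⟨z 0, by rw [sub_self, norm_zero]; positivity, h0, by simp, by simp⟩
  | succ n ih =>
    obtain ⟨w, hw1, hw2, hw3, hw4⟩ := ih (fun i hi => hR i (by omega)) (fun i hi => hRR i (by omega))
      (fun i hi => hU i (by omega)) (fun i hi => hz i (by omega))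
    have hRn := hR n (by omega)
    have hzn := hz n (by omega)
    have hRRn := hRR n (by omega)
    have hsub : ball w (79 / 80 * R n) ⊆ U := by
      refine Subset.trans ?_ (hU n (by omega))
      intro y hy
      rw [mem_ball, dist_eq_norm] at hy ⊢
      have : ‖y - z n‖ ≤ ‖y - w‖ + ‖w - z n‖ := norm_sub_le_norm_sub_add_norm_sub y w (z n)
      linarith
    have haw : ‖z (n + 1) - w‖ ≤ R n / 40 := by
      have h1 : ‖z (n + 1) - w‖ ≤ ‖z (n + 1) - z n‖ + ‖z n - w‖ :=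
        norm_sub_le_norm_sub_add_norm_sub _ (z n) w
      rw [norm_sub_rev (z n) w] at h1
      linarith
    obtain ⟨b, hb1, hb2, hb3, hb4, hb5, hb6⟩ := (h.mono hsub).move (c := w) (a := z (n + 1))
      (by positivity) hw2 (by linarith)
    have hKR : KR = 14 + LS := rfl
    have hLS := LS_one
    have hS0 : 1 ≤ St M F G (z 0) :=
      St_pos h (hU 0 (by omega) (mem_ball_self (hR 0 (by omega)))) h0
    have hSw : 1 ≤ St M F G w := St_pos (h.mono hsub) (mem_ball_self (by positivity)) hw2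
    refine ⟨b, ?_, hb3, ?_, ?_⟩
    · refine hb2.trans ?_
      linarith
    · calc St M F G b ≤ (13 + LS) * St M F G w := hb6
        _ ≤ KR * St M F G w := by rw [hKR]; gcongr; linarith
        _ ≤ KR * (KR ^ n * St M F G (z 0)) := by
            have := KR_one
            gcongr
        _ = KR ^ (n + 1) * St M F G (z 0) := by ring
    · have h1 : ‖F b - F (z 0)‖ ≤ ‖F b - F w‖ + ‖F w - F (z 0)‖ :=
        norm_sub_le_norm_sub_add_norm_sub _ _ _
      have h2 : LS * St M F G w ≤ LS * (KR ^ n * St M F G (z 0)) := by gcongr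
      have h3 : (KR ^ (n + 1) - 1) * St M F G (z 0) = LS * (KR ^ n * St M F G (z 0)) +
          (KR ^ n - 1) * St M F G (z 0) + 13 * KR ^ n * St M F G (z 0) := by
        rw [pow_succ, hKR]; ring
      have h4 : 0 ≤ 13 * KR ^ n * St M F G (z 0) := by
        have := KR_one
        positivity
      linarith

/-- **the chain, at the end point itself** -/
theorem RG.chain_end {U : Set E} {M : ℝ} {F G : E → ℂ} (h : RG U M F G) {z : ℕ → E} {R : ℕ → ℝ}
    {n : ℕ} (hR : ∀ i ≤ n, 0 < R i) (hRR : ∀ i < n, R i ≤ 2 * R (i + 1))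
    (hU : ∀ i ≤ n, ball (z i) (R i) ⊆ U) (hz : ∀ i < n, ‖z (i + 1) - z i‖ ≤ R i / 80)
    (h0 : G (z 0) ≠ 0) {w : E} (hw : ‖w - z n‖ ≤ R n / 80) :
    ‖F w - F (z 0)‖ ≤ KR ^ (n + 1) * St M F G (z 0) := by
  obtain ⟨b, hb1, hb2, hb3, hb4⟩ := h.chain hR hRR hU hz h0
  have hRn := hR n le_rfl
  have hsub : ball b (79 / 80 * R n) ⊆ U := by
    refine Subset.trans ?_ (hU n le_rfl)
    intro y hy
    rw [mem_ball, dist_eq_norm] at hy ⊢
    have : ‖y - z n‖ ≤ ‖y - b‖ + ‖b - z n‖ := norm_sub_le_norm_sub_add_norm_sub y b (z n)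
    linarith
  have hwb : ‖w - b‖ ≤ R n / 40 := by
    have h1 : ‖w - b‖ ≤ ‖w - z n‖ + ‖z n - b‖ := norm_sub_le_norm_sub_add_norm_sub _ (z n) b
    rw [norm_sub_rev (z n) b] at h1
    linarith
  have h2 := (h.mono hsub).step (z := w) (by positivity) hb2 (by linarith)
  have hKR : KR = 14 + LS := rfl
  have hLS := LS_one
  have hS0 : 1 ≤ St M F G (z 0) := St_pos h (hU 0 (by omega) (mem_ball_self (hR 0 (by omega)))) h0
  have h3 : ‖F w - F (z 0)‖ ≤ ‖F w - F b‖ + ‖F b - F (z 0)‖ :=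
    norm_sub_le_norm_sub_add_norm_sub _ _ _
  have h4 : LS * St M F G b ≤ LS * (KR ^ n * St M F G (z 0)) := by gcongr
  have h5 : KR ^ (n + 1) * St M F G (z 0) = LS * (KR ^ n * St M F G (z 0)) +
      14 * KR ^ n * St M F G (z 0) := by rw [pow_succ, hKR]; ring
  have h6 : 0 ≤ 13 * KR ^ n * St M F G (z 0) := by
    have := KR_one
    positivity
  have h7 : (KR ^ n - 1) * St M F G (z 0) ≤ KR ^ n * St M F G (z 0) := by gcongr; linarith
  linarith

end Vale.Agent.P097.H881
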