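import Mathlib

/-!
Jensen count: a holomorphic function on a disc, bounded by `M`, has few zeros if it is not small
at the centre (Blaschke factors only).
-/

open Complex Metric Filter Topology Set

namespace Vale.Agent.P097.H881

theorem blaschke_finset {R M : ℝ} (hR : 0 < R) (S : Finset ℂ) : ∀ f : ℂ → ℂ,
    DiffContOnCl ℂ f (ball 0 R) → (∀ z ∈ sphere (0 : ℂ) R, ‖f z‖ ≤ M) →
    (∀ a ∈ S, a ∈ ball (0 : ℂ) R ∧ f a = 0) → ‖f 0‖ ≤ M * ∏ a ∈ S, (‖a‖ / R) := by
  induction S using Finset.induction_on with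
  | empty =>
    intro f hf hM _
    have h := Complex.norm_le_of_forall_mem_frontier_norm_le (U := ball (0 : ℂ) R) isBounded_ball hf
      (C := M) (fun z hz => hM z (by rwa [frontier_ball _ hR.ne'] at hz))
      (subset_closure (mem_ball_self hR))
    simpa using h
  | insert a S haS ih =>
    intro f hf hM hS
    obtain ⟨haR, hfa⟩ := hS a (Finset.mem_insert_self _ _)
    have hanorm : ‖a‖ < R := by simpa using haR
    have hprod : 0 ≤ ∏ b ∈ S, (‖b‖ / R) := Finset.prod_nonneg fun b _ => by positivity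
    have hM0 : 0 ≤ M := by
      have := hM (R : ℂ) (by simp [abs_of_pos hR])
      exact (norm_nonneg _).trans this
    rcases eq_or_ne a 0 with ha0 | ha0
    · rw [ha0] at hfa
      rw [hfa, norm_zero, Finset.prod_insert haS]
      have : 0 ≤ ‖a‖ / R := by positivity
      positivity
    set g : ℂ → ℂ := fun z => dslope f a z * ((R : ℂ) ^ 2 - (starRingEnd ℂ) a * z) / R with hg
    have hRc : (R : ℂ) ≠ 0 := by exact_mod_cast hR.ne'
    have hsl : ∀ z, z ≠ a → dslope f a z = f z / (z - a) := by
      intro z hz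
      rw [dslope_of_ne f hz, slope_def_field, hfa, sub_zero]
    have hcl : closure (ball (0 : ℂ) R) = closedBall 0 R := closure_ball _ hR.ne'
    have hgd : DiffContOnCl ℂ g (ball 0 R) := by
      constructor
      · have h1 : DifferentiableOn ℂ (dslope f a) (ball 0 R) :=
          (Complex.differentiableOn_dslope (isOpen_ball.mem_nhds haR)).mpr hf.differentiableOn
        have h2 : DifferentiableOn ℂ (fun z : ℂ => (R : ℂ) ^ 2 - (starRingEnd ℂ) a * z)
          (ball 0 R) := by fun_prop
        exact (h1.mul h2).div_const _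
      · rw [hcl]
        have h1 : ContinuousOn (dslope f a) (closedBall 0 R) := by
          rw [continuousOn_dslope (mem_of_superset (isOpen_ball.mem_nhds haR) ball_subset_closedBall)]
          refine ⟨by simpa [hcl] using hf.continuousOn, ?_⟩
          exact hf.differentiableAt isOpen_ball haR
        have h2 : ContinuousOn (fun z : ℂ => (R : ℂ) ^ 2 - (starRingEnd ℂ) a * z)
          (closedBall 0 R) := by fun_prop
        exact (h1.mul h2).div_const _
    have hgM : ∀ z ∈ sphere (0 : ℂ) R, ‖g z‖ ≤ M := by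
      intro z hz
      have hzR : ‖z‖ = R := by simpa using hz
      have hza : z ≠ a := by
        rintro rfl
        linarith
      have hnum : ‖(R : ℂ) ^ 2 - (starRingEnd ℂ) a * z‖ = R * ‖z - a‖ := by
        have h1 : (R : ℂ) ^ 2 = z * (starRingEnd ℂ) z := by
          rw [Complex.mul_conj, Complex.normSq_eq_norm_sq, hzR]
          push_cast; ring
        rw [h1, show z * (starRingEnd ℂ) z - (starRingEnd ℂ) a * z
          = z * (starRingEnd ℂ) (z - a) by rw [map_sub]; ring, norm_mul, Complex.norm_conj, hzR]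
      have hne : ‖z - a‖ ≠ 0 := norm_ne_zero_iff.mpr (sub_ne_zero.mpr hza)
      rw [hg]
      simp only []
      rw [hsl z hza, norm_div, norm_mul, norm_div, hnum, Complex.norm_real, Real.norm_eq_abs,
        abs_of_pos hR]
      have : ‖f z‖ / ‖z - a‖ * (R * ‖z - a‖) / R = ‖f z‖ := by field_simp
      rw [this]
      exact hM z hz
    have hgS : ∀ b ∈ S, b ∈ ball (0 : ℂ) R ∧ g b = 0 := by
      intro b hb
      obtain ⟨h1, h2⟩ := hS b (Finset.mem_insert_of_mem hb)
      refine ⟨h1, ?_⟩
      have hba : b ≠ a := by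
        rintro rfl
        exact haS hb
      rw [hg]
      simp only []
      rw [hsl b hba, h2]
      simp
    have hI := ih g hgd hgM hgS
    have hg0 : ‖g 0‖ = ‖f 0‖ * R / ‖a‖ := by
      rw [hg]
      simp only []
      rw [hsl 0 (Ne.symm ha0), norm_div, norm_mul, norm_div, zero_sub, norm_neg, mul_zero, sub_zero,
        norm_pow, Complex.norm_real, Real.norm_eq_abs, abs_of_pos hR]
      field_simp
    have hapos : 0 < ‖a‖ := norm_pos_iff.mpr ha0
    rw [hg0, div_le_iff₀ hapos] at hI
    rw [Finset.prod_insert haS]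
    have : ‖f 0‖ = ‖f 0‖ * R / R := by field_simp
    rw [this, div_le_iff₀ hR]
    calc ‖f 0‖ * R ≤ (M * ∏ b ∈ S, (‖b‖ / R)) * ‖a‖ := hI
      _ = M * (‖a‖ / R * ∏ b ∈ S, (‖b‖ / R)) * R := by
        have hRR : ‖a‖ / R * R = ‖a‖ := by field_simp
        calc (M * ∏ b ∈ S, (‖b‖ / R)) * ‖a‖ = (M * ∏ b ∈ S, (‖b‖ / R)) * (‖a‖ / R * R) := by
              rw [hRR]
          _ = _ := by ring

/-- zeros in a smaller disc -/
theorem jensen_card {f : ℂ → ℂ} {c : ℂ} {r R M : ℝ} (hr : 0 ≤ r) (hrR : r < R)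
    (hf : DifferentiableOn ℂ f (ball c R)) (hM : ∀ z ∈ ball c R, ‖f z‖ ≤ M) (S : Finset ℂ)
    (hS : ∀ a ∈ S, ‖a - c‖ ≤ r ∧ f a = 0) : ‖f c‖ ≤ M * (r / R) ^ S.card := by
  have hR : 0 < R := hr.trans_lt hrR
  have hM0 : 0 ≤ M := (norm_nonneg _).trans (hM c (mem_ball_self hR))
  have key : ∀ R' ∈ Ioo r R, ‖f c‖ ≤ M * (r / R') ^ S.card := by
    intro R' hR'
    have hR'0 : 0 < R' := hr.trans_lt hR'.1
    have hmaps : MapsTo (fun w : ℂ => w + c) (closedBall 0 R') (ball c R) := by
      intro w hw
      rw [mem_closedBall_zero_iff] at hw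
      rw [mem_ball, dist_eq_norm, add_sub_cancel_right]
      exact hw.trans_lt hR'.2
    have hd : DiffContOnCl ℂ (fun w => f (w + c)) (ball 0 R') := by
      refine DifferentiableOn.diffContOnCl ?_
      rw [closure_ball _ hR'0.ne']
      exact hf.comp (by fun_prop) hmaps
    have h := blaschke_finset (M := M) hR'0 (S.image fun a => a - c) (fun w => f (w + c)) hd
      (fun z hz => hM _ (hmaps (sphere_subset_closedBall hz))) (by
        intro a ha
        obtain ⟨b, hb, rfl⟩ := Finset.mem_image.mp ha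
        obtain ⟨h1, h2⟩ := hS b hb
        refine ⟨?_, by simpa using h2⟩
        rw [mem_ball_zero_iff]
        exact h1.trans_lt hR'.1)
    rw [zero_add, Finset.prod_image (by intro x _ y _ hxy; simpa using hxy)] at h
    refine h.trans ?_
    refine mul_le_mul_of_nonneg_left ?_ hM0
    calc ∏ a ∈ S, (‖a - c‖ / R') ≤ ∏ _a ∈ S, (r / R') :=
          Finset.prod_le_prod (fun a _ => by positivity)
            (fun a ha => by gcongr; exact (hS a ha).1)
      _ = (r / R') ^ S.card := by rw [Finset.prod_const]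
  -- let `R' → R`
  have hne : (Ioo r R).Nonempty := nonempty_Ioo.mpr hrR
  have ht : Tendsto (fun R' : ℝ => M * (r / R') ^ S.card) (𝓝[<] R) (𝓝 (M * (r / R) ^ S.card)) := by
    have h1 : ContinuousAt (fun R' : ℝ => M * (r / R') ^ S.card) R := by
      have : R ≠ 0 := hR.ne'
      fun_prop (disch := assumption)
    exact h1.tendsto.mono_left nhdsWithin_le_nhds
  refine ge_of_tendsto ht ?_
  filter_upwards [Ioo_mem_nhdsLT hrR] with R' hR'
  exact key R' hR'

/-- **Jensen count**. -/
theorem jensen_encard {f : ℂ → ℂ} {c : ℂ} {r R M : ℝ} (hr : 0 ≤ r) (hrR : r < R)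
    (hf : DifferentiableOn ℂ f (ball c R)) (hM : ∀ z ∈ ball c R, ‖f z‖ ≤ M) {N : ℕ}
    (hN : M * (r / R) ^ (N + 1) < ‖f c‖) :
    {z ∈ closedBall c r | f z = 0}.encard ≤ N := by
  by_contra hcon
  rw [not_le] at hcon
  have h1 : ((N + 1 : ℕ) : ℕ∞) ≤ {z ∈ closedBall c r | f z = 0}.encard := by
    have := Order.add_one_le_of_lt hcon
    exact_mod_cast this
  obtain ⟨T, hT, hTc⟩ := Set.exists_subset_encard_eq h1
  have hfin : T.Finite := Set.finite_of_encard_eq_coe hTc
  have hcard : hfin.toFinset.card = N + 1 := by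
    have := hfin.encard_eq_coe_toFinset_card
    rw [hTc] at this
    exact_mod_cast this.symm
  have := jensen_card hr hrR hf hM hfin.toFinset (by
    intro a ha
    have h2 := hT (hfin.mem_toFinset.mp ha)
    exact ⟨by simpa [dist_eq_norm] using h2.1, h2.2⟩)
  rw [hcard] at this
  exact absurd hN (not_lt.mpr this)

end Vale.Agent.P097.H881
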