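import Vale.Agent.P097.H881.Sc3

/-!
The Schottky chain with R2 points in the quadrant tube `{Im z₁ < 0 < Im z₂}` of `ℂ × ℂ`.
-/

open Complex Metric Filter Topology Set

namespace Vale.Agent.P097.H881

/-- truncated quadrant tube -/
def QT (h : ℝ) (p : ℂ × ℂ) (X : ℝ) : Set (ℂ × ℂ) := {z | h < -z.1.im ∧ h < z.2.im ∧ dist z p < X}

/-- the point over the foot of `z` with heights at least `t` -/
noncomputable def lift (z : ℂ × ℂ) (t : ℝ) : ℂ × ℂ :=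
  (⟨z.1.re, -max t (-z.1.im)⟩, ⟨z.2.re, max t z.2.im⟩)

theorem lift_self {z : ℂ × ℂ} {t : ℝ} (h1 : t ≤ -z.1.im) (h2 : t ≤ z.2.im) : lift z t = z := by
  unfold lift
  rw [max_eq_right h1, max_eq_right h2, neg_neg]

theorem norm_lift_sub (z : ℂ × ℂ) (s t : ℝ) : ‖lift z t - lift z s‖ ≤ |t - s| := by
  unfold lift
  rw [Prod.norm_def]
  refine max_le ?_ ?_
  · have h1 : ((⟨z.1.re, -max t (-z.1.im)⟩ : ℂ) - ⟨z.1.re, -max s (-z.1.im)⟩) =
        ((max s (-z.1.im) - max t (-z.1.im) : ℝ) : ℂ) * I := by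
      apply Complex.ext <;> simp
      ring
    show ‖(⟨z.1.re, -max t (-z.1.im)⟩ : ℂ) - ⟨z.1.re, -max s (-z.1.im)⟩‖ ≤ |t - s|
    rw [h1, norm_mul, Complex.norm_I, mul_one, Complex.norm_real, Real.norm_eq_abs, abs_sub_comm t s]
    exact abs_max_sub_max_le_abs _ _ _
  · have h1 : ((⟨z.2.re, max t z.2.im⟩ : ℂ) - ⟨z.2.re, max s z.2.im⟩) =
        ((max t z.2.im - max s z.2.im : ℝ) : ℂ) * I := by
      apply Complex.ext <;> simp
    show ‖(⟨z.2.re, max t z.2.im⟩ : ℂ) - ⟨z.2.re, max s z.2.im⟩‖ ≤ |t - s|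
    rw [h1, norm_mul, Complex.norm_I, mul_one, Complex.norm_real, Real.norm_eq_abs]
    exact abs_max_sub_max_le_abs _ _ _

theorem dist_lift {z : ℂ × ℂ} {h ρ : ℝ} (hh : 0 ≤ h) (h1 : h ≤ -z.1.im) (h2 : h ≤ z.2.im) (hρ : h ≤ ρ) :
    ‖lift z ρ - z‖ ≤ ρ := by
  have h3 := norm_lift_sub z h ρ
  rw [lift_self h1 h2, abs_of_nonneg (by linarith)] at h3
  linarith

theorem ball_lift {z p : ℂ × ℂ} {h ρ X t : ℝ} (hh : 0 ≤ h) (h1 : h ≤ -z.1.im) (h2 : h ≤ z.2.im)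
    (hz : dist z p ≤ X * ρ) (ht : t ∈ Icc h ρ) (hρ : 0 < ρ) :
    ball (lift z t) (1 / 2 * t) ⊆ QT (h / 2) p ((X + 2) * ρ) := by
  intro y hy
  rw [mem_ball, dist_eq_norm] at hy
  have hy1 : ‖y.1 - (lift z t).1‖ < 1 / 2 * t := (norm_fst_le (y - lift z t)).trans_lt hy
  have hy2 : ‖y.2 - (lift z t).2‖ < 1 / 2 * t := (norm_snd_le (y - lift z t)).trans_lt hy
  have hi1 := (Complex.abs_im_le_norm (y.1 - (lift z t).1)).trans_lt hy1
  have hi2 := (Complex.abs_im_le_norm (y.2 - (lift z t).2)).trans_lt hy2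
  rw [Complex.sub_im, abs_lt] at hi1 hi2
  have e1 : (lift z t).1.im = -max t (-z.1.im) := rfl
  have e2 : (lift z t).2.im = max t z.2.im := rfl
  rw [e1] at hi1
  rw [e2] at hi2
  have m1 := le_max_left t (-z.1.im)
  have m2 := le_max_left t z.2.im
  have ht1 := ht.1
  have ht2 := ht.2
  refine ⟨by linarith, by linarith, ?_⟩
  have hd : dist y p ≤ ‖y - lift z t‖ + ‖lift z t - z‖ + dist z p := by
    rw [← dist_eq_norm, ← dist_eq_norm]
    exact dist_triangle4 _ _ _ _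
  have hl := dist_lift hh h1 h2 ht1
  linarith

/-- down in the quadrant tube -/
theorem quad_down {z p : ℂ × ℂ} {X ω ρ : ℝ} (hω : 0 < ω) (hω1 : ω ≤ 1) (hρ : 0 < ρ)
    (h1 : ω * ρ ≤ -z.1.im) (h2 : ω * ρ ≤ z.2.im) (hz : dist z p ≤ X * ρ) :
    JR (QT (ω * ρ / 2) p ((X + 2) * ρ)) (KR * (1 / ω) ^ pR (1 / 2)) (lift z ρ) (ρ / 160)
      z (ω * ρ / 160) := by
  have hωρ : 0 < ω * ρ := by positivity
  have hle : ω * ρ ≤ ρ := by nlinarith
  have h := JR.path_down (U := QT (ω * ρ / 2) p ((X + 2) * ρ)) (γ := lift z) (a := ω * ρ) (b := ρ)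
    (c := 1 / 2) hωρ hle (by norm_num) (by norm_num)
    (fun s _ t _ => norm_lift_sub z s t) (fun t ht => ball_lift hωρ.le h1 h2 hz ht hρ)
  rw [lift_self h1 h2] at h
  have e1 : ρ / (ω * ρ) = 1 / ω := by field_simp
  rw [e1] at h
  exact h.mono_radius (by linarith) (by linarith)

/-- up in the quadrant tube -/
theorem quad_up {z p : ℂ × ℂ} {X ω ρ : ℝ} (hω : 0 < ω) (hω1 : ω ≤ 1) (hρ : 0 < ρ)
    (h1 : ω * ρ ≤ -z.1.im) (h2 : ω * ρ ≤ z.2.im) (hz : dist z p ≤ X * ρ) :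
    JR (QT (ω * ρ / 2) p ((X + 2) * ρ)) (KR * (1 / ω) ^ pR (1 / 2)) z (ω * ρ / 160)
      (lift z ρ) (ρ / 160) := by
  have hωρ : 0 < ω * ρ := by positivity
  have hle : ω * ρ ≤ ρ := by nlinarith
  have h := JR.path_up (U := QT (ω * ρ / 2) p ((X + 2) * ρ)) (γ := lift z) (a := ω * ρ) (b := ρ)
    (c := 1 / 2) hωρ hle (by norm_num)
    (fun s _ t _ => norm_lift_sub z s t) (fun t ht => ball_lift hωρ.le h1 h2 hz ht hρ)
  rw [lift_self h1 h2] at h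
  have e1 : ρ / (ω * ρ) = 1 / ω := by field_simp
  rw [e1] at h
  exact h.mono_radius (by linarith) (by linarith)

theorem QT_mono {h h' X X' : ℝ} {p : ℂ × ℂ} (hh : h' ≤ h) (hX : X ≤ X') : QT h p X ⊆ QT h' p X' :=
  fun _ hz => ⟨hh.trans_lt hz.1, hh.trans_lt hz.2.1, hz.2.2.trans_le hX⟩

/-- the segment at height `ρ` -/
theorem quad_seg {b z p : ℂ × ℂ} {X ω₀ ω ρ : ℝ} (hω₀ : 0 < ω₀) (hω₀1 : ω₀ ≤ 1) (hω : 0 < ω)
    (hω1 : ω ≤ 1) (hρ : 0 < ρ) (hX : 0 ≤ X)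
    (b1 : ω₀ * ρ ≤ -b.1.im) (b2 : ω₀ * ρ ≤ b.2.im) (hb : dist b p ≤ X * ρ)
    (h1 : ω * ρ ≤ -z.1.im) (h2 : ω * ρ ≤ z.2.im) (hz : dist z p ≤ X * ρ) :
    JR (QT (ρ / 2) p ((X + 2) * ρ)) (KR ^ (320 * X + 321)) (lift b ρ) (ρ / 160)
      (lift z ρ) (ρ / 160) := by
  have hlb := dist_lift (by positivity) b1 b2 (by nlinarith : ω₀ * ρ ≤ ρ)
  have hlz := dist_lift (by positivity) h1 h2 (by nlinarith : ω * ρ ≤ ρ)
  have hKR := KR_one
  have hsub : ∀ t ∈ Icc (0 : ℝ) 1, ball (lift b ρ + (t : ℂ) • (lift z ρ - lift b ρ)) (ρ / 2) ⊆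
      QT (ρ / 2) p ((X + 2) * ρ) := by
    intro t ht y hy
    rw [mem_ball, dist_eq_norm] at hy
    set c : ℂ × ℂ := lift b ρ + (t : ℂ) • (lift z ρ - lift b ρ) with hc
    have hy1 : ‖y.1 - c.1‖ < ρ / 2 := (norm_fst_le (y - c)).trans_lt hy
    have hy2 : ‖y.2 - c.2‖ < ρ / 2 := (norm_snd_le (y - c)).trans_lt hy
    have hi1 := (Complex.abs_im_le_norm (y.1 - c.1)).trans_lt hy1
    have hi2 := (Complex.abs_im_le_norm (y.2 - c.2)).trans_lt hy2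
    rw [Complex.sub_im, abs_lt] at hi1 hi2
    have e1 : c.1.im = -max ρ (-b.1.im) + t * (-max ρ (-z.1.im) - -max ρ (-b.1.im)) := by
      rw [hc]
      simp [lift]
    have e2 : c.2.im = max ρ b.2.im + t * (max ρ z.2.im - max ρ b.2.im) := by
      rw [hc]
      simp [lift]
    have m1 := le_max_left ρ (-b.1.im)
    have m2 := le_max_left ρ (-z.1.im)
    have m3 := le_max_left ρ b.2.im
    have m4 := le_max_left ρ z.2.im
    have hc1 : c.1.im ≤ -ρ := by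
      rw [e1]
      nlinarith [ht.1, ht.2]
    have hc2 : ρ ≤ c.2.im := by
      rw [e2]
      nlinarith [ht.1, ht.2]
    refine ⟨by linarith, by linarith, ?_⟩
    have hcp : ‖c - p‖ ≤ (X + 1) * ρ := by
      have h3 : c - p = ((1 - t : ℝ) : ℂ) • (lift b ρ - p) + (t : ℂ) • (lift z ρ - p) := by
        rw [hc, Complex.ofReal_sub, Complex.ofReal_one]
        module
      rw [h3]
      have h4 : ‖lift b ρ - p‖ ≤ (X + 1) * ρ := by
        have := norm_sub_le_norm_sub_add_norm_sub (lift b ρ) b p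
        rw [← dist_eq_norm b p] at this
        linarith
      have h5 : ‖lift z ρ - p‖ ≤ (X + 1) * ρ := by
        have := norm_sub_le_norm_sub_add_norm_sub (lift z ρ) z p
        rw [← dist_eq_norm z p] at this
        linarith
      calc ‖((1 - t : ℝ) : ℂ) • (lift b ρ - p) + (t : ℂ) • (lift z ρ - p)‖
          ≤ ‖((1 - t : ℝ) : ℂ) • (lift b ρ - p)‖ + ‖(t : ℂ) • (lift z ρ - p)‖ := norm_add_le _ _
        _ = (1 - t) * ‖lift b ρ - p‖ + t * ‖lift z ρ - p‖ := by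
          rw [norm_smul, norm_smul, Complex.norm_real, Complex.norm_real, Real.norm_eq_abs,
            Real.norm_eq_abs, abs_of_nonneg (by linarith [ht.2]), abs_of_nonneg ht.1]
        _ ≤ (1 - t) * ((X + 1) * ρ) + t * ((X + 1) * ρ) := by
          have := ht.1
          have := ht.2
          gcongr
        _ = (X + 1) * ρ := by ring
    have hd : dist y p ≤ ‖y - c‖ + ‖c - p‖ := by
      rw [dist_eq_norm]
      exact norm_sub_le_norm_sub_add_norm_sub _ _ _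
    linarith
  have h := JR.path_seg (U := QT (ρ / 2) p ((X + 2) * ρ)) (z := lift b ρ) (w := lift z ρ)
    (R := ρ / 2) (by positivity) hsub
  have hnorm : ‖lift z ρ - lift b ρ‖ ≤ (2 * X + 2) * ρ := by
    have e : lift z ρ - lift b ρ = (lift z ρ - z) + (z - p) + (p - b) + (b - lift b ρ) := by abel
    rw [e]
    have t1 := norm_add_le ((lift z ρ - z) + (z - p) + (p - b)) (b - lift b ρ)
    have t2 := norm_add_le ((lift z ρ - z) + (z - p)) (p - b)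
    have t3 := norm_add_le (lift z ρ - z) (z - p)
    rw [← dist_eq_norm z p] at t3
    rw [norm_sub_rev p b, ← dist_eq_norm b p] at t2
    rw [norm_sub_rev b (lift b ρ)] at t1
    linarith
  have hcb : closedBall (lift b ρ) (ρ / 2 / 80) ⊆ QT (ρ / 2) p ((X + 2) * ρ) := by
    have h0 := hsub 0 ⟨le_rfl, zero_le_one⟩
    rw [Complex.ofReal_zero, zero_smul, add_zero] at h0
    exact (closedBall_subset_ball (by linarith)).trans h0
  refine (h.mono ?_ hcb).mono_radius (by linarith) (by linarith)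
  refine Real.rpow_le_rpow_of_exponent_le hKR ?_
  have h6 : 80 * ‖lift z ρ - lift b ρ‖ / (ρ / 2) ≤ 320 * X + 320 := by
    rw [div_le_iff₀ (by positivity)]
    nlinarith
  linarith

/-- the growth of the quadrant chain -/
noncomputable def AQ (X ω₀ ω : ℝ) : ℝ :=
  KR ^ (320 * X + 323) * (1 / ω₀) ^ pR (1 / 2) * (1 / ω) ^ pR (1 / 2)

theorem AQ_one {X ω₀ ω : ℝ} (hX : 0 ≤ X) (hω₀ : 0 < ω₀) (hω₀1 : ω₀ ≤ 1) (hω : 0 < ω)
    (hω1 : ω ≤ 1) : 1 ≤ AQ X ω₀ ω := by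
  unfold AQ
  have hp : 0 ≤ pR (1 / 2) := pR_nonneg (by norm_num)
  have h1 : 1 ≤ KR ^ (320 * X + 323) := Real.one_le_rpow KR_one (by linarith)
  have h2 : 1 ≤ (1 / ω₀) ^ pR (1 / 2) :=
    Real.one_le_rpow (by rw [le_div_iff₀ hω₀]; linarith) hp
  have h3 : 1 ≤ (1 / ω) ^ pR (1 / 2) := Real.one_le_rpow (by rw [le_div_iff₀ hω]; linarith) hp
  exact one_le_mul_of_one_le_of_one_le (one_le_mul_of_one_le_of_one_le h1 h2) h3

/-- **the chain in the quadrant tube**: from `b` (relative depth `ω₀`) to `z` (relative depth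
`ω`), both within `X ρ` of `p` -/
theorem quad_chain {b z p : ℂ × ℂ} {X ω₀ ω ρ : ℝ} (hω₀ : 0 < ω₀) (hω₀1 : ω₀ ≤ 1) (hω : 0 < ω)
    (hω1 : ω ≤ 1) (hρ : 0 < ρ) (hX : 0 ≤ X)
    (b1 : ω₀ * ρ ≤ -b.1.im) (b2 : ω₀ * ρ ≤ b.2.im) (hb : dist b p ≤ X * ρ)
    (h1 : ω * ρ ≤ -z.1.im) (h2 : ω * ρ ≤ z.2.im) (hz : dist z p ≤ X * ρ) :
    JR (QT (min ω₀ ω * ρ / 2) p ((X + 2) * ρ)) (AQ X ω₀ ω) b (ω₀ * ρ / 160)
      z (ω * ρ / 160) := by
  have hKR := KR_one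
  have hp : 0 ≤ pR (1 / 2) := pR_nonneg (by norm_num)
  have h2' : 1 ≤ (1 / ω₀) ^ pR (1 / 2) :=
    Real.one_le_rpow (by rw [le_div_iff₀ hω₀]; linarith) hp
  have h3' : 1 ≤ (1 / ω) ^ pR (1 / 2) := Real.one_le_rpow (by rw [le_div_iff₀ hω]; linarith) hp
  have hle1 : min ω₀ ω * ρ / 2 ≤ ω₀ * ρ / 2 := by
    have := min_le_left ω₀ ω
    gcongr
  have hle2 : min ω₀ ω * ρ / 2 ≤ ω * ρ / 2 := by
    have := min_le_right ω₀ ω
    gcongr
  have hle3 : min ω₀ ω * ρ / 2 ≤ ρ / 2 := by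
    have h := min_le_right ω₀ ω
    have : min ω₀ ω * ρ ≤ 1 * ρ := by gcongr; exact h.trans hω1
    linarith
  have u1 := (quad_up hω₀ hω₀1 hρ b1 b2 hb).mono_set (QT_mono hle1 (le_refl ((X + 2) * ρ)))
  have u2 := (quad_seg hω₀ hω₀1 hω hω1 hρ hX b1 b2 hb h1 h2 hz).mono_set
    (QT_mono hle3 (le_refl ((X + 2) * ρ)))
  have u3 := (quad_down hω hω1 hρ h1 h2 hz).mono_set (QT_mono hle2 (le_refl ((X + 2) * ρ)))
  have h4 := (u1.trans u2 (Real.one_le_rpow hKR (by linarith))).trans u3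
    (one_le_mul_of_one_le_of_one_le hKR h3')
  have h5 : KR * (1 / ω₀) ^ pR (1 / 2) * KR ^ (320 * X + 321) * (KR * (1 / ω) ^ pR (1 / 2)) =
      AQ X ω₀ ω := by
    have h6 : KR ^ (320 * X + 323) = KR ^ (320 * X + 321) * KR * KR := by
      have : 320 * X + 323 = 320 * X + 321 + 1 + 1 := by ring
      rw [this, Real.rpow_add_one (by linarith), Real.rpow_add_one (by linarith)]
    unfold AQ
    rw [h6]
    ring
  rwa [h5] at h4

/-- **octave bound**: at every point of relative depth `ω` (and on a small ball round it) -/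
theorem oct_bound {b z p : ℂ × ℂ} {X ω₀ ω ρ : ℝ} (hω₀ : 0 < ω₀) (hω₀1 : ω₀ ≤ 1) (hω : 0 < ω)
    (hω1 : ω ≤ 1) (hρ : 0 < ρ) (hX : 0 ≤ X)
    (b1 : ω₀ * ρ ≤ -b.1.im) (b2 : ω₀ * ρ ≤ b.2.im) (hb : dist b p ≤ X * ρ)
    (h1 : ω * ρ ≤ -z.1.im) (h2 : ω * ρ ≤ z.2.im) (hz : dist z p ≤ X * ρ)
    {M : ℝ} {F G : ℂ × ℂ → ℂ} (hRG : RG (QT (min ω₀ ω * ρ / 2) p ((X + 2) * ρ)) M F G)
    (h0 : G b ≠ 0) {v : ℂ × ℂ} (hv : ‖v - z‖ ≤ ω * ρ / 160) :
    ‖F v - F b‖ ≤ (KR * AQ X ω₀ ω - 1) * (1 + |(F b).re| + Real.log (M / ‖G b‖)) := by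
  have hωρ : 0 < ω * ρ := by positivity
  have hω₀ρ : 0 < ω₀ * ρ := by positivity
  have hle : ω * ρ ≤ ρ := by nlinarith
  have hle' : ω₀ * ρ ≤ ρ := by nlinarith
  have h := quad_chain hω₀ hω₀1 hω hω1 hρ hX b1 b2 hb h1 h2 hz
  have hball : ball z (ω * ρ / 2) ⊆ QT (min ω₀ ω * ρ / 2) p ((X + 2) * ρ) := by
    have h3 := ball_lift hωρ.le h1 h2 hz (t := ω * ρ) ⟨le_rfl, hle⟩ hρ
    rw [lift_self h1 h2] at h3
    have hle2 : min ω₀ ω * ρ / 2 ≤ ω * ρ / 2 := by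
      have := min_le_right ω₀ ω
      gcongr
    refine Subset.trans ?_ (h3.trans (QT_mono hle2 le_rfl))
    exact ball_subset_ball (by linarith)
  have hbU : b ∈ QT (min ω₀ ω * ρ / 2) p ((X + 2) * ρ) := by
    have h3 := ball_lift hω₀ρ.le b1 b2 hb (t := ω₀ * ρ) ⟨le_rfl, hle'⟩ hρ
    rw [lift_self b1 b2] at h3
    have hle2 : min ω₀ ω * ρ / 2 ≤ ω₀ * ρ / 2 := by
      have := min_le_left ω₀ ω
      gcongr
    exact (h3.trans (QT_mono hle2 le_rfl)) (mem_ball_self (by positivity))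
  have h3 := JR.fin (R := ω * ρ / 2) (h.mono_radius le_rfl (by linarith))
    (AQ_one hX hω₀ hω₀1 hω hω1) (by positivity) hball hRG (z' := b)
    (by rw [sub_self, norm_zero]; positivity) h0 hbU (v := v) (by linarith)
  exact h3

end Vale.Agent.P097.H881
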