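import Vale.Agent.P097.H264.Chain
import Vale.Agent.P097.H226.Harn
import Vale.Agent.P097.H881.Jen

/-!
Schottky with counting. If `exp F` takes the value `1` at most `N` times on `U`, then one of the
`N + 1` residue classes `2 pi i (k + (N + 1) Z)` is omitted by `F`, so `(F - 2 pi i k)/(N + 1)` is
`LogOm`. Everything known for functions without ones holds with `1` replaced by `N + 1`.
-/

open Complex Metric Filter Topology Set

namespace Vale.Agent.P097.H881

open Vale.Agent.P097.H699 Vale.Agent.P097.H264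

section cls

variable {E : Type*}

/-- one of the `N + 1` classes is omitted -/
theorem class_omitted {U : Set E} {F : E → ℂ} {N : ℕ}
    (h : {z ∈ U | exp (F z) = 1}.encard ≤ N) :
    ∃ k : ℕ, k ≤ N ∧ ∀ z ∈ U, exp ((F z - 2 * Real.pi * k * I) / (N + 1)) ≠ 1 := by
  by_contra hcon
  push Not at hcon
  have hN0 : ((N : ℂ) + 1) ≠ 0 := by exact_mod_cast (Nat.succ_ne_zero N)
  have hpi : (2 * Real.pi * I : ℂ) ≠ 0 := two_pi_I_ne_zero
  have hex : ∀ k : Fin (N + 1), ∃ z ∈ U, ∃ n : ℤ,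
      F z = ((k : ℕ) + (N + 1) * n : ℤ) * (2 * Real.pi * I) := by
    intro k
    obtain ⟨z, hz, hz1⟩ := hcon k (Nat.lt_succ_iff.mp k.2)
    obtain ⟨n, hn⟩ := Complex.exp_eq_one_iff.mp hz1
    refine ⟨z, hz, n, ?_⟩
    rw [div_eq_iff hN0] at hn
    push_cast
    linear_combination hn
  choose z hzU n hn using hex
  have hinj : Function.Injective z := by
    intro a b hab
    have h1 := hn a
    rw [hab, hn b] at h1
    have h2 := mul_right_cancel₀ hpi h1
    have h3 : (((b : ℕ) : ℤ) + (N + 1) * n b : ℤ) = ((a : ℕ) : ℤ) + (N + 1) * n a := by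
      exact_mod_cast h2
    have h4 : ((b : ℕ) : ℤ) % ((N : ℤ) + 1) = ((a : ℕ) : ℤ) % ((N : ℤ) + 1) := by
      have := congrArg (fun x : ℤ => x % ((N : ℤ) + 1)) h3
      simpa using this
    have ha := a.2
    have hb := b.2
    rw [Int.emod_eq_of_lt (by positivity) (by omega), Int.emod_eq_of_lt (by positivity) (by omega)]
      at h4
    exact Fin.ext (by exact_mod_cast h4.symm)
  have hsub : (Finset.univ.map ⟨z, hinj⟩ : Set E) ⊆ {z ∈ U | exp (F z) = 1} := by
    intro w hw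
    simp only [Finset.coe_map, Function.Embedding.coeFn_mk, Finset.coe_univ, image_univ,
      mem_range] at hw
    obtain ⟨a, rfl⟩ := hw
    exact ⟨hzU a, Complex.exp_eq_one_iff.mpr ⟨_, hn a⟩⟩
  have h5 := (Set.encard_le_encard hsub).trans h
  rw [Set.encard_coe_eq_coe_finsetCard, Finset.card_map, Finset.card_univ, Fintype.card_fin] at h5
  have h6 : N + 1 ≤ N := by exact_mod_cast h5
  omega

end cls

variable {E : Type*} [NormedAddCommGroup E] [NormedSpace ℂ E]

theorem logOm_count {U : Set E} {F : E → ℂ} {N : ℕ} (hF : DifferentiableOn ℂ F U)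
    (h : {z ∈ U | exp (F z) = 1}.encard ≤ N) :
    ∃ k : ℕ, k ≤ N ∧ LogOm U (fun z => (F z - 2 * Real.pi * k * I) / (N + 1)) := by
  obtain ⟨k, hk, hk1⟩ := class_omitted h
  refine ⟨k, hk, ?_, hk1⟩
  simp only [div_eq_mul_inv]
  exact (hF.sub_const _).mul_const _

theorem re_cls (w : ℂ) (k N : ℕ) :
    ((w - 2 * Real.pi * k * I) / ((N : ℂ) + 1)).re = w.re / (N + 1) := by
  have h1 : ((N : ℂ) + 1) = ((N + 1 : ℝ) : ℂ) := by push_cast; ring
  rw [h1, Complex.div_ofReal_re]
  congr 1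
  simp

theorem abs_re_cls (w : ℂ) (k N : ℕ) :
    |((w - 2 * Real.pi * k * I) / ((N : ℂ) + 1)).re| = |w.re| / (N + 1) := by
  rw [re_cls, abs_div, abs_of_pos (by positivity : (0 : ℝ) < N + 1)]

theorem norm_sub_cls (w w' : ℂ) (k N : ℕ) :
    ‖(w - 2 * Real.pi * k * I) / ((N : ℂ) + 1) - (w' - 2 * Real.pi * k * I) / ((N : ℂ) + 1)‖ =
      ‖w - w'‖ / (N + 1) := by
  rw [← sub_div, norm_div, show w - 2 * Real.pi * k * I - (w' - 2 * Real.pi * k * I) = w - w' by ring]
  congr 1
  have h1 : ((N : ℂ) + 1) = ((N + 1 : ℝ) : ℂ) := by push_cast; ring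
  rw [h1, Complex.norm_real, Real.norm_eq_abs, abs_of_pos (by positivity : (0 : ℝ) < N + 1)]

/-- **growth with counting along everything that joins `z` and `w` in `U`** -/
theorem J_count {U : Set E} {a : ℝ} {z w : E} (hJ : J U a z w) {F : E → ℂ} {N : ℕ}
    (hF : DifferentiableOn ℂ F U) (h : {z ∈ U | exp (F z) = 1}.encard ≤ N) :
    N + 1 + |(F w).re| ≤ a * (N + 1 + |(F z).re|) ∧
      ‖F w - F z‖ ≤ (a - 1) * (N + 1 + |(F z).re|) := by
  obtain ⟨k, _, hk⟩ := logOm_count hF h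
  obtain ⟨h1, h2⟩ := hJ _ hk
  have hN : (0 : ℝ) < N + 1 := by positivity
  rw [abs_re_cls, abs_re_cls] at h1
  rw [abs_re_cls, norm_sub_cls] at h2
  constructor
  · have h3 : 1 + |(F w).re| / (N + 1) = (N + 1 + |(F w).re|) / (N + 1) := by field_simp
    have h4 : a * (1 + |(F z).re| / (N + 1)) = (a * (N + 1 + |(F z).re|)) / (N + 1) := by
      field_simp
    rw [h3, h4, div_le_div_iff_of_pos_right hN] at h1
    exact h1
  · have h4 : (a - 1) * (1 + |(F z).re| / (N + 1)) = ((a - 1) * (N + 1 + |(F z).re|)) / (N + 1) := by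
      field_simp
    rw [h4, div_le_div_iff_of_pos_right hN] at h2
    exact h2

/-- one step -/
theorem step_count {F : E → ℂ} {c z : E} {R : ℝ} {N : ℕ} (hR : 0 < R)
    (hF : DifferentiableOn ℂ F (ball c R)) (h : {z ∈ ball c R | exp (F z) = 1}.encard ≤ N)
    (hz : ‖z - c‖ ≤ R / 8) : ‖F z - F c‖ ≤ LS * (N + 1 + |(F c).re|) := by
  obtain ⟨k, _, hk⟩ := logOm_count hF h
  have h2 := LogOm.step hR hk hz
  have hN : (0 : ℝ) < N + 1 := by positivity
  rw [abs_re_cls, norm_sub_cls] at h2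
  have h4 : LS * (1 + |(F c).re| / (N + 1)) = (LS * (N + 1 + |(F c).re|)) / (N + 1) := by
    field_simp
  rw [h4, div_le_div_iff_of_pos_right hN] at h2
  exact h2

/-- **Schottky with counting**, derivative form (one variable) -/
theorem schottky_count {F : ℂ → ℂ} {c z : ℂ} {R : ℝ} {N : ℕ}
    (hF : DifferentiableOn ℂ F (ball c R)) (h : {z ∈ ball c R | exp (F z) = 1}.encard ≤ N)
    (hz : z ∈ ball c R) : (R - ‖z - c‖) * ‖deriv F z‖ ≤ 8 * LS * (N + 1 + |(F z).re|) := by
  have hz' : ‖z - c‖ < R := by simpa [dist_eq_norm] using hz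
  set ρ : ℝ := R - ‖z - c‖ with hρ
  have hρ0 : 0 < ρ := by rw [hρ]; linarith
  have hsub : ball z ρ ⊆ ball c R := by
    intro y hy
    rw [mem_ball, dist_eq_norm] at hy ⊢
    have : ‖y - c‖ ≤ ‖y - z‖ + ‖z - c‖ := norm_sub_le_norm_sub_add_norm_sub y z c
    rw [hρ] at hy
    linarith
  have hsub' : {y ∈ ball z ρ | exp (F y) = 1}.encard ≤ {y ∈ ball c R | exp (F y) = 1}.encard :=
    Set.encard_le_encard (fun w hw => ⟨hsub hw.1, hw.2⟩)
  have hstep : ∀ y, ‖y - z‖ ≤ ρ / 8 → ‖F y - F z‖ ≤ LS * (N + 1 + |(F z).re|) := fun y hy =>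
    step_count hρ0 (hF.mono hsub) (hsub'.trans h) hy
  have hd : DiffContOnCl ℂ (fun y => F y - F z) (ball z (ρ / 8)) := by
    refine DifferentiableOn.diffContOnCl ?_
    rw [closure_ball _ (by positivity)]
    refine ((hF.mono hsub).mono ?_).sub_const _
    intro y hy
    rw [mem_closedBall] at hy
    rw [mem_ball]
    linarith
  have h3 := Complex.norm_deriv_le_of_forall_mem_sphere_norm_le (by positivity : 0 < ρ / 8) hd
    (C := LS * (N + 1 + |(F z).re|)) (fun y hy => hstep y (by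
      rw [mem_sphere, dist_eq_norm] at hy
      exact hy.le))
  rw [deriv_sub_const, le_div_iff₀ (by positivity)] at h3
  linarith

/-- **octave form** (226's `octave` with counting): sign and growth `2.03` per octave as soon as
`|Re F| ≥ K0 (N + 1)` -/
theorem octave_count {F : ℂ → ℂ} {p : ℂ} {h : ℝ} {N : ℕ} (hh : 0 < h)
    (hF : DifferentiableOn ℂ F (ball (p + 100 * h * I) (99.995 * h)))
    (hN : {z ∈ ball (p + 100 * h * I) (99.995 * h) | exp (F z) = 1}.encard ≤ N)
    (hK : H226.K0 * (N + 1) ≤ |(F (p + h * I)).re|) :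
    |(F (p + h * I)).re| ≤ 2.03 * |(F (p + (h / 2 : ℝ) * I)).re| ∧
      0 < (F (p + h * I)).re * (F (p + (h / 2 : ℝ) * I)).re := by
  obtain ⟨k, _, hk⟩ := logOm_count hF hN
  have hN0 : (0 : ℝ) < N + 1 := by positivity
  have hlog : ∀ w : ℂ, Real.log ‖exp ((w - 2 * Real.pi * k * I) / ((N : ℂ) + 1))‖ =
      w.re / (N + 1) := by
    intro w
    rw [Complex.norm_exp, Real.log_exp, re_cls]
  have h2 := H226.octave (f := fun z => exp ((F z - 2 * Real.pi * k * I) / ((N : ℂ) + 1))) hh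
    hk.hol.cexp (fun z _ => exp_ne_zero _) (fun z hz => hk.ne z hz) (by
      rw [hlog, abs_div, abs_of_pos hN0, le_div_iff₀ hN0]
      exact hK)
  rw [hlog, hlog, abs_div, abs_div, abs_of_pos hN0] at h2
  obtain ⟨h3, h4⟩ := h2
  constructor
  · rw [← mul_div_assoc, div_le_div_iff_of_pos_right hN0] at h3
    exact h3
  · rw [div_mul_div_comm] at h4
    by_contra hcon
    rw [not_lt] at hcon
    have := div_nonpos_of_nonpos_of_nonneg hcon (by positivity : (0 : ℝ) ≤ (N + 1) * (N + 1))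
    linarith

/-- **the sequence of octave values** of `Re F` satisfies 226's `Seq` when the number of ones per
octave window is bounded by `N` -/
theorem seq_count {F : ℂ → ℂ} {p : ℂ} {h : ℝ} {N : ℕ} (hh : 0 < h)
    (hF : ∀ n : ℕ, DifferentiableOn ℂ F (ball (p + 100 * ((h / 2 ^ n : ℝ) : ℂ) * I)
      (99.995 * (h / 2 ^ n))))
    (hN : ∀ n : ℕ, {z ∈ ball (p + 100 * ((h / 2 ^ n : ℝ) : ℂ) * I) (99.995 * (h / 2 ^ n)) |
      exp (F z) = 1}.encard ≤ N)
    {K : ℝ} (hK : H226.K0 * (N + 1) ≤ K) :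
    H226.Seq (fun n => (F (p + ((h / 2 ^ n : ℝ) : ℂ) * I)).re) K 2.03 where
  K0 := by
    have h2 : 0 < H226.K0 := by
      unfold H226.K0
      have := H226.C0_pos
      positivity
    have : 0 < H226.K0 * (N + 1) := by positivity
    linarith
  A1 := by norm_num
  sign := by
    intro n hn _
    have h2 := (octave_count (by positivity : 0 < h / 2 ^ n) (hF n) (hN n) (hK.trans hn.le)).2
    have e1 : h / 2 ^ n / 2 = h / 2 ^ (n + 1) := by rw [pow_succ]; field_simp
    rw [e1] at h2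
    exact h2
  grow := by
    intro n hn
    have h2 := (octave_count (by positivity : 0 < h / 2 ^ n) (hF n) (hN n) (hK.trans hn.le)).1
    have e1 : h / 2 ^ n / 2 = h / 2 ^ (n + 1) := by rw [pow_succ]; field_simp
    rw [e1] at h2
    refine h2.trans ?_
    gcongr
    exact le_max_left _ _

end Vale.Agent.P097.H881
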